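import Mathlib

/-!
Base `2 ^ W` digits of natural numbers, their relation to polynomials with natural coefficients,
and a digit-wise floor operation.
-/

namespace Vale.Agent.Lib.P154.Lat

open Polynomial

/-- The `k`-th digit of `N` in base `B`. -/
def dig (B N k : ℕ) : ℕ := (N / B ^ k) % B

theorem dig_lt {B : ℕ} (hB : 0 < B) (N k : ℕ) : dig B N k < B := Nat.mod_lt _ hB

theorem dig_eq_zero_of_lt {B N k : ℕ} (h : N < B ^ k) : dig B N k = 0 := by
  unfold dig
  rw [Nat.div_eq_of_lt h, Nat.zero_mod]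

theorem lt_pow_self' {B : ℕ} (hB : 2 ≤ B) (k : ℕ) : k < B ^ k := Nat.lt_pow_self (by omega)

theorem dig_zero_eval {B : ℕ} (hB : 0 < B) (R : ℕ[X]) (h0 : R.coeff 0 < B) :
    R.eval B % B = R.coeff 0 ∧ R.eval B / B = R.divX.eval B := by
  have e : R.eval B = B * R.divX.eval B + R.coeff 0 := by
    conv_lhs => rw [← Polynomial.divX_mul_X_add R]
    simp only [eval_add, eval_mul, eval_X, eval_C]
    ring
  constructor
  · rw [e, Nat.mul_add_mod, Nat.mod_eq_of_lt h0]
  · rw [e, Nat.mul_add_div hB, Nat.div_eq_of_lt h0, add_zero]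

/-- Digits of the value of a polynomial whose coefficients are small are its coefficients. -/
theorem dig_eval {B : ℕ} (hB : 0 < B) (R : ℕ[X]) (h : ∀ n, R.coeff n < B) (k : ℕ) :
    dig B (R.eval B) k = R.coeff k := by
  induction k generalizing R with
  | zero =>
    unfold dig
    simp only [pow_zero, Nat.div_one]
    exact (dig_zero_eval hB R (h 0)).1
  | succ k ih =>
    have h1 := (dig_zero_eval hB R (h 0)).2
    have h2 : ∀ n, R.divX.coeff n < B := fun n => by
      rw [Polynomial.coeff_divX]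
      exact h _
    have h3 := ih R.divX h2
    rw [Polynomial.coeff_divX] at h3
    rw [← h3]
    unfold dig
    rw [pow_succ', ← Nat.div_div_eq_div_mul, h1]

/-- The polynomial of digits of a number. -/
noncomputable def pol (B N : ℕ) : ℕ[X] :=
  ∑ k ∈ Finset.range (N + 1), Polynomial.monomial k (dig B N k)

theorem pol_coeff {B : ℕ} (hB : 2 ≤ B) (N k : ℕ) : (pol B N).coeff k = dig B N k := by
  unfold pol
  rw [Polynomial.finsetSum_coeff]
  simp only [Polynomial.coeff_monomial]
  rw [Finset.sum_ite_eq' (Finset.range (N + 1)) k]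
  split_ifs with h
  · rfl
  · symm
    apply dig_eq_zero_of_lt
    have : N < k := by
      simp only [Finset.mem_range, not_lt] at h
      omega
    exact this.trans (lt_pow_self' hB k)

/-- Value of the polynomial of digits. -/
theorem pol_eval {B : ℕ} (hB : 2 ≤ B) (N : ℕ) : (pol B N).eval B = N := by
  have key : ∀ n M : ℕ, ∑ k ∈ Finset.range n, dig B M k * B ^ k + B ^ n * (M / B ^ n) = M := by
    intro n M
    induction n with
    | zero => simp
    | succ n ih =>
      rw [Finset.sum_range_succ]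
      have e : M / B ^ n = B * (M / B ^ (n + 1)) + dig B M n := by
        unfold dig
        have : M / B ^ (n + 1) = M / B ^ n / B := by
          rw [pow_succ, Nat.div_div_eq_div_mul]
        rw [this]
        exact (Nat.div_add_mod _ _).symm
      conv_rhs => rw [← ih, e]
      rw [pow_succ]
      ring
  unfold pol
  rw [Polynomial.eval_finsetSum]
  simp only [Polynomial.eval_monomial]
  have h := key (N + 1) N
  have h0 : N / B ^ (N + 1) = 0 :=
    Nat.div_eq_of_lt ((lt_pow_self' hB (N + 1)).trans' (by omega))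
  rw [h0, mul_zero, add_zero] at h
  exact h

/-- A polynomial with small coefficients is recovered from its value. -/
theorem pol_of_eval {B : ℕ} (hB : 2 ≤ B) (R : ℕ[X]) (h : ∀ n, R.coeff n < B) :
    pol B (R.eval B) = R := by
  ext k
  rw [pol_coeff hB, dig_eval (by omega) R h]

theorem pol_coeff_ne {B : ℕ} (hB : 2 ≤ B) {N k : ℕ} (h : (pol B N).coeff k ≠ 0) :
    dig B N k ≠ 0 := by
  rwa [pol_coeff hB] at h

/-- Value of a product of digit polynomials. -/
theorem pol_mul {B : ℕ} (hB : 2 ≤ B) (N N' : ℕ)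
    (h : ∀ n, (pol B N * pol B N').coeff n < B) : pol B (N * N') = pol B N * pol B N' := by
  have e : N * N' = (pol B N * pol B N').eval B := by
    rw [Polynomial.eval_mul, pol_eval hB, pol_eval hB]
  rw [e, pol_of_eval hB _ h]

/-- Splitting digits into low and high part. -/
theorem dig_mod_pow {B : ℕ} (hB : 2 ≤ B) (x m k : ℕ) (hk : k < m) :
    dig B (x % B ^ m) k = dig B x k := by
  unfold dig
  obtain ⟨n, rfl⟩ : ∃ n, m = k + (n + 1) := ⟨m - k - 1, by omega⟩
  have hp : 0 < B ^ k := pow_pos (by omega) k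
  rw [pow_add, Nat.mod_mul_right_div_self, pow_succ']
  exact Nat.mod_mod_of_dvd _ (Dvd.intro _ rfl)

theorem dig_mod_pow_high {B : ℕ} (hB : 2 ≤ B) (x m k : ℕ) (hk : m ≤ k) :
    dig B (x % B ^ m) k = 0 := by
  apply dig_eq_zero_of_lt
  have h1 : x % B ^ m < B ^ m := Nat.mod_lt _ (pow_pos (by omega) m)
  exact h1.trans_le (Nat.pow_le_pow_right (by omega) hk)

theorem dig_div_pow (B x m k : ℕ) : dig B (x / B ^ m) k = dig B x (m + k) := by
  unfold dig
  rw [Nat.div_div_eq_div_mul, pow_add]

/-- Polynomial splitting into low and high part. -/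
theorem pol_split {B : ℕ} (hB : 2 ≤ B) (x m : ℕ) :
    pol B x = pol B (x % B ^ m) + X ^ m * pol B (x / B ^ m) := by
  ext k
  rw [coeff_add, pol_coeff hB, pol_coeff hB, Polynomial.coeff_X_pow_mul']
  by_cases h : k < m
  · rw [dig_mod_pow hB x m k h, if_neg (by omega), add_zero]
  · rw [dig_mod_pow_high hB x m k (by omega), if_pos (by omega), zero_add, pol_coeff hB,
      dig_div_pow]
    congr 1
    omega

/-- Digit of a land with base a power of two. -/
theorem dig_land (W a b k : ℕ) :
    dig (2 ^ W) (a &&& b) k = dig (2 ^ W) a k &&& dig (2 ^ W) b k := by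
  unfold dig
  rw [← pow_mul]
  rw [← Nat.shiftRight_eq_div_pow, ← Nat.shiftRight_eq_div_pow, ← Nat.shiftRight_eq_div_pow,
    Nat.shiftRight_and_distrib, Nat.and_mod_two_pow]

/-- The mask: low `w` bits in each of the first `L` digits. -/
def digMask (W w L : ℕ) : ℕ := (2 ^ w - 1) * (((1 <<< (W * L)) - 1) / (2 ^ W - 1))

noncomputable def maskPol (w L : ℕ) : ℕ[X] :=
  ∑ k ∈ Finset.range L, Polynomial.monomial k (2 ^ w - 1)

theorem maskPol_coeff (w L k : ℕ) : (maskPol w L).coeff k = if k < L then 2 ^ w - 1 else 0 := by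
  unfold maskPol
  rw [Polynomial.finsetSum_coeff]
  simp only [Polynomial.coeff_monomial]
  rw [Finset.sum_ite_eq' (Finset.range L) k]
  simp only [Finset.mem_range]

theorem maskPol_eval {W w L : ℕ} (hW : 1 ≤ W) : (maskPol w L).eval (2 ^ W) = digMask W w L := by
  have hB : 2 ≤ 2 ^ W := by
    calc 2 = 2 ^ 1 := by norm_num
      _ ≤ 2 ^ W := Nat.pow_le_pow_right (by norm_num) hW
  unfold maskPol digMask
  rw [Polynomial.eval_finsetSum]
  simp only [Polynomial.eval_monomial]
  rw [← Finset.mul_sum, Nat.one_shiftLeft, pow_mul, Nat.geomSum_eq hB]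

theorem dig_digMask {W w L : ℕ} (hW : 1 ≤ W) (hw : w ≤ W) (k : ℕ) :
    dig (2 ^ W) (digMask W w L) k = if k < L then 2 ^ w - 1 else 0 := by
  rw [← maskPol_eval hW, dig_eval (by positivity), maskPol_coeff]
  intro n
  rw [maskPol_coeff]
  have h1 : 2 ^ w ≤ 2 ^ W := Nat.pow_le_pow_right (by norm_num) hw
  have h2 : 0 < 2 ^ w := by positivity
  split_ifs <;> omega

/-- Digit-wise floor and clamp. -/
def floorClamp (W s w L N : ℕ) : ℕ := (N >>> s) &&& digMask W w L

theorem dig_floorClamp {W s w L : ℕ} (hW : 1 ≤ W) (hs : s + w ≤ W) (N k : ℕ) :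
    dig (2 ^ W) (floorClamp W s w L N) k
      = if k < L then ((N / 2 ^ (W * k)) / 2 ^ s) % 2 ^ w else 0 := by
  unfold floorClamp
  rw [dig_land, dig_digMask hW (by omega)]
  split_ifs with h
  · rw [Nat.and_two_pow_sub_one_eq_mod]
    unfold dig
    rw [Nat.shiftRight_eq_div_pow, ← pow_mul, Nat.div_div_eq_div_mul, Nat.div_div_eq_div_mul,
      mul_comm (2 ^ s)]
    exact Nat.mod_mod_of_dvd _ (Nat.pow_dvd_pow _ (by omega))
  · simp

theorem dig_floorClamp_lt {W s w L : ℕ} (hW : 1 ≤ W) (hs : s + w ≤ W) (N k : ℕ) :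
    dig (2 ^ W) (floorClamp W s w L N) k < 2 ^ w := by
  rw [dig_floorClamp hW hs]
  split_ifs
  · exact Nat.mod_lt _ (by positivity)
  · positivity

theorem dig_floorClamp_high {W s w L : ℕ} (hW : 1 ≤ W) (hs : s + w ≤ W) (N k : ℕ) (hk : L ≤ k) :
    dig (2 ^ W) (floorClamp W s w L N) k = 0 := by
  rw [dig_floorClamp hW hs, if_neg (by omega)]

/-- Floor bound: the floored digit times the scale is at most the digit. -/
theorem dig_floorClamp_le {W s w L : ℕ} (hW : 1 ≤ W) (hs : s + w ≤ W) (N k : ℕ) :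
    dig (2 ^ W) (floorClamp W s w L N) k * 2 ^ s ≤ dig (2 ^ W) N k := by
  rw [dig_floorClamp hW hs]
  split_ifs
  · set A := N / 2 ^ (W * k) with hA
    have e : dig (2 ^ W) N k = A % 2 ^ W := by
      unfold dig
      rw [← pow_mul]
    rw [e]
    have e2 : A / 2 ^ s % 2 ^ w = A % (2 ^ s * 2 ^ w) / 2 ^ s :=
      (Nat.mod_mul_right_div_self _ _ _).symm
    rw [e2]
    calc A % (2 ^ s * 2 ^ w) / 2 ^ s * 2 ^ s ≤ A % (2 ^ s * 2 ^ w) := Nat.div_mul_le_self _ _
      _ ≤ A % 2 ^ W := by
        rw [← pow_add]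
        have : A % 2 ^ W % 2 ^ (s + w) = A % 2 ^ (s + w) :=
          Nat.mod_mod_of_dvd _ (Nat.pow_dvd_pow _ hs)
        rw [← this]
        exact Nat.mod_le _ _
  · simp

end Vale.Agent.Lib.P154.Lat
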