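import Vale.Agent.Lib.P154.NegPoint
import Vale.Agent.Lib.P154.Lat.Digits

/-!
Dominating laws: convex-order style bounds of a signal by a finite law given by a polynomial
with natural coefficients, for all subadditive homogeneous functionals vanishing at the vertices.
-/

noncomputable section

open Polynomial

namespace Vale.Agent.Lib.P154.Lat

/-- The linear functional of a polynomial with natural coefficients. -/
def Phi (f : ℕ → ℝ) (R : ℕ[X]) : ℝ := R.sum fun p c => (c : ℝ) * f p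

theorem Phi_zero (f : ℕ → ℝ) : Phi f 0 = 0 := Polynomial.sum_zero_index _

theorem Phi_add (f : ℕ → ℝ) (R S : ℕ[X]) : Phi f (R + S) = Phi f R + Phi f S :=
  Polynomial.sum_add_index _ _ _ (fun i => by simp) (fun a b c => by push_cast; ring)

theorem Phi_monomial (f : ℕ → ℝ) (n a : ℕ) : Phi f (monomial n a) = a * f n :=
  Polynomial.sum_monomial_index _ _ (by simp)

theorem Phi_eq_range (f : ℕ → ℝ) (R : ℕ[X]) (n : ℕ) (h : R.natDegree < n) :
    Phi f R = ∑ a ∈ Finset.range n, (R.coeff a : ℝ) * f a :=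
  Polynomial.sum_over_range' _ (fun i => by simp) n h

theorem Phi_congr {f g : ℕ → ℝ} {R : ℕ[X]} (h : ∀ p, R.coeff p ≠ 0 → f p = g p) :
    Phi f R = Phi g R := by
  unfold Phi Polynomial.sum
  refine Finset.sum_congr rfl fun p hp => ?_
  change (R.coeff p : ℝ) * f p = (R.coeff p : ℝ) * g p
  rw [h p (Polynomial.mem_support_iff.mp hp)]

theorem Phi_le_fun {f g : ℕ → ℝ} {R : ℕ[X]} (h : ∀ p, R.coeff p ≠ 0 → f p ≤ g p) :
    Phi f R ≤ Phi g R := by
  unfold Phi Polynomial.sum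
  refine Finset.sum_le_sum fun p hp => ?_
  exact mul_le_mul_of_nonneg_left (h p (Polynomial.mem_support_iff.mp hp)) (Nat.cast_nonneg _)

theorem Phi_add_fun (f g : ℕ → ℝ) (R : ℕ[X]) : Phi (fun p => f p + g p) R = Phi f R + Phi g R := by
  unfold Phi Polynomial.sum
  rw [← Finset.sum_add_distrib]
  refine Finset.sum_congr rfl fun p _ => by ring

theorem Phi_smul_fun (c : ℝ) (f : ℕ → ℝ) (R : ℕ[X]) : Phi (fun p => c * f p) R = c * Phi f R := by
  unfold Phi Polynomial.sum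
  rw [Finset.mul_sum]
  refine Finset.sum_congr rfl fun p _ => by ring

theorem Phi_sub_fun (f g : ℕ → ℝ) (R : ℕ[X]) : Phi (fun p => f p - g p) R = Phi f R - Phi g R := by
  unfold Phi Polynomial.sum
  rw [← Finset.sum_sub_distrib]
  refine Finset.sum_congr rfl fun p _ => by ring

theorem Phi_zero_fun (R : ℕ[X]) : Phi (fun _ => 0) R = 0 := by
  unfold Phi Polynomial.sum
  simp

theorem Phi_nonneg {f : ℕ → ℝ} {R : ℕ[X]} (h : ∀ p, 0 ≤ f p) : 0 ≤ Phi f R := by
  unfold Phi Polynomial.sum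
  exact Finset.sum_nonneg fun p _ => mul_nonneg (Nat.cast_nonneg _) (h p)

theorem Phi_nonpos {f : ℕ → ℝ} {R : ℕ[X]} (h : ∀ p, f p ≤ 0) : Phi f R ≤ 0 := by
  unfold Phi Polynomial.sum
  exact Finset.sum_nonpos fun p _ => mul_nonpos_of_nonneg_of_nonpos (Nat.cast_nonneg _) (h p)

theorem Phi_mul (f : ℕ → ℝ) (R S : ℕ[X]) :
    Phi f (R * S) = Phi (fun k => Phi (fun l => f (k + l)) S) R := by
  induction R using Polynomial.induction_on' with
  | add p q hp hq => rw [add_mul, Phi_add, Phi_add, hp, hq]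
  | monomial n a =>
    rw [Phi_monomial]
    induction S using Polynomial.induction_on' with
    | add p q hp hq => rw [mul_add, Phi_add, Phi_add, hp, hq]; ring
    | monomial m b =>
      rw [Polynomial.monomial_mul_monomial, Phi_monomial, Phi_monomial]
      push_cast
      ring

theorem Phi_X_pow_mul (f : ℕ → ℝ) (s : ℕ) (R : ℕ[X]) :
    Phi f (X ^ s * R) = Phi (fun l => f (s + l)) R := by
  rw [Polynomial.X_pow_eq_monomial, Phi_mul, Phi_monomial]
  simp

theorem Phi_C_mul (f : ℕ → ℝ) (c : ℕ) (R : ℕ[X]) : Phi f (C c * R) = c * Phi f R := by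
  rw [← Polynomial.monomial_zero_left, Phi_mul, Phi_monomial]
  simp

/-- Coefficientwise monotonicity for a nonpositive weight. -/
theorem Phi_antitone {f : ℕ → ℝ} {R S : ℕ[X]} (hf : ∀ p, f p ≤ 0) (h : ∀ n, R.coeff n ≤ S.coeff n) :
    Phi f S ≤ Phi f R := by
  have hn : R.natDegree < max R.natDegree S.natDegree + 1 := by
    have := le_max_left R.natDegree S.natDegree
    omega
  have hn' : S.natDegree < max R.natDegree S.natDegree + 1 := by
    have := le_max_right R.natDegree S.natDegree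
    omega
  rw [Phi_eq_range f R _ hn, Phi_eq_range f S _ hn']
  refine Finset.sum_le_sum fun a _ => ?_
  exact mul_le_mul_of_nonpos_right (by exact_mod_cast h a) (hf a)

/-- Coefficientwise monotonicity for a nonnegative weight. -/
theorem Phi_monotone {f : ℕ → ℝ} {R S : ℕ[X]} (hf : ∀ p, 0 ≤ f p) (h : ∀ n, R.coeff n ≤ S.coeff n) :
    Phi f R ≤ Phi f S := by
  have := Phi_antitone (f := fun p => - f p) (R := R) (S := S) (fun p => by have := hf p; linarith) h
  have e : ∀ T : ℕ[X], Phi (fun p => - f p) T = - Phi f T := by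
    intro T
    have := Phi_smul_fun (-1) f T
    simpa using this
  rw [e, e] at this
  linarith

/-- Functionals: subadditive, homogeneous, vanishing at the vertices. -/
structure InG (G : (Fin 3 → ℝ) → ℝ) : Prop where
  sub : ∀ x y, 0 ≤ x → 0 ≤ y → G (x + y) ≤ G x + G y
  hom : ∀ (c : ℝ) x, 0 ≤ c → 0 ≤ x → G (c • x) = c * G x
  vert : ∀ i, G (Pi.single i 1) = 0

theorem decomp3 (x : Fin 3 → ℝ) :
    x = x 0 • Pi.single 0 1 + x 1 • Pi.single 1 1 + x 2 • Pi.single 2 1 := by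
  funext i
  fin_cases i <;> simp

theorem single_nonneg' (i : Fin 3) : (0 : Fin 3 → ℝ) ≤ Pi.single i 1 := by
  intro j
  by_cases h : j = i
  · subst h; simp
  · simp [h]

theorem InG.le_zero {G : (Fin 3 → ℝ) → ℝ} (h : InG G) {x : Fin 3 → ℝ} (hx : 0 ≤ x) : G x ≤ 0 := by
  have s := fun i => smul_nonneg (hx i) (single_nonneg' i)
  have h1 := h.sub _ _ (add_nonneg (s 0) (s 1)) (s 2)
  have h2 := h.sub _ _ (s 0) (s 1)
  have e0 := h.hom (x 0) _ (hx 0) (single_nonneg' 0)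
  have e1 := h.hom (x 1) _ (hx 1) (single_nonneg' 1)
  have e2 := h.hom (x 2) _ (hx 2) (single_nonneg' 2)
  rw [h.vert, mul_zero] at e0 e1 e2
  rw [← decomp3 x] at h1
  linarith

/-- Domination of a signal by a polynomial law. -/
def Dom {ι : Type*} [Fintype ι] (l : ι → Fin 3 → ℝ) (f : ℕ → Fin 3 → ℝ) (c : ℝ) (R : ℕ[X]) : Prop :=
  ∀ G, InG G → ∑ t, G (l t) ≤ c * Phi (fun k => G (f k)) R

variable {ι κ : Type*} [Fintype ι] [Fintype κ]

theorem single_mul (i : Fin 3) (y : Fin 3 → ℝ) :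
    Pi.single i 1 * y = y i • (Pi.single i 1 : Fin 3 → ℝ) := by
  funext j
  by_cases h : j = i
  · subst h; simp
  · simp [h]

theorem InG.mulLeft {G : (Fin 3 → ℝ) → ℝ} (h : InG G) {x : Fin 3 → ℝ} (hx : 0 ≤ x) :
    InG fun y => G (x * y) where
  sub := fun y z hy hz => by
    rw [mul_add]
    exact h.sub _ _ (mul_nonneg hx hy) (mul_nonneg hx hz)
  hom := fun c y hc hy => by
    rw [mul_smul_comm]
    exact h.hom _ _ hc (mul_nonneg hx hy)
  vert := fun i => by
    rw [mul_comm, single_mul, h.hom _ _ (hx i) (single_nonneg' i), h.vert, mul_zero]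

theorem InG.phi {G : (Fin 3 → ℝ) → ℝ} (h : InG G) {f : ℕ → Fin 3 → ℝ} (hf : ∀ k, 0 ≤ f k) (R : ℕ[X]) :
    InG fun x => Phi (fun p => G (x * f p)) R where
  sub := fun x y hx hy => by
    rw [← Phi_add_fun]
    refine Phi_le_fun fun p _ => ?_
    rw [add_mul]
    exact h.sub _ _ (mul_nonneg hx (hf p)) (mul_nonneg hy (hf p))
  hom := fun c x hc hx => by
    rw [← Phi_smul_fun]
    refine Phi_congr fun p _ => ?_
    rw [smul_mul_assoc]
    exact h.hom _ _ hc (mul_nonneg hx (hf p))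
  vert := fun i => by
    rw [← Phi_zero_fun R]
    refine Phi_congr fun p _ => ?_
    rw [single_mul, h.hom _ _ (hf p i) (single_nonneg' i), h.vert, mul_zero]

/-- Products of dominated signals. -/
theorem Dom.prod {l : ι → Fin 3 → ℝ} {l' : κ → Fin 3 → ℝ} (hl : ∀ t, 0 ≤ l t)
    {f f' f'' : ℕ → Fin 3 → ℝ} (hf' : ∀ k, 0 ≤ f' k)
    {c c' : ℝ} (hc' : 0 ≤ c') {R R' : ℕ[X]}
    (h : Dom l f c R) (h' : Dom l' f' c' R')
    (hmul : ∀ k p, R.coeff k ≠ 0 → R'.coeff p ≠ 0 → f'' (k + p) = f k * f' p) :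
    Dom (prodS l l') f'' (c * c') (R * R') := by
  intro G hG
  have e1 : ∑ t, G (prodS l l' t) = ∑ t, ∑ t', G (l t * l' t') := by
    rw [Fintype.sum_prod_type]
    rfl
  rw [e1]
  have e2 : ∀ t, ∑ t', G (l t * l' t') ≤ c' * Phi (fun p => G (l t * f' p)) R' :=
    fun t => h' _ (hG.mulLeft (hl t))
  have e3 := h _ (hG.phi hf' R')
  have e4 : Phi (fun n => G (f'' n)) (R * R') = Phi (fun k => Phi (fun p => G (f k * f' p)) R') R := by
    rw [Phi_mul]
    refine Phi_congr fun k hk => Phi_congr fun p hp => ?_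
    rw [hmul k p hk hp]
  rw [e4]
  calc ∑ t, ∑ t', G (l t * l' t') ≤ ∑ t, c' * Phi (fun p => G (l t * f' p)) R' :=
        Finset.sum_le_sum fun t _ => e2 t
    _ = c' * ∑ t, Phi (fun p => G (l t * f' p)) R' := by rw [Finset.mul_sum]
    _ ≤ c' * (c * Phi (fun k => Phi (fun p => G (f k * f' p)) R') R) :=
        mul_le_mul_of_nonneg_left e3 hc'
    _ = _ := by ring

/-- The channel on a vector. -/
def chanV (lam : ℝ) (x : Fin 3 → ℝ) : Fin 3 → ℝ :=
  fun i => lam * x i + (1 - lam) / 3 * (x 0 + x 1 + x 2)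

theorem chanV_add (lam : ℝ) (x y : Fin 3 → ℝ) : chanV lam (x + y) = chanV lam x + chanV lam y := by
  funext i
  simp only [chanV, Pi.add_apply]
  ring

theorem chanV_smul (lam c : ℝ) (x : Fin 3 → ℝ) : chanV lam (c • x) = c • chanV lam x := by
  funext i
  simp only [chanV, Pi.smul_apply, smul_eq_mul]
  ring

theorem chanV_nonneg {lam : ℝ} (h0 : -(1 / 2) ≤ lam) (h1 : lam ≤ 1) {x : Fin 3 → ℝ} (hx : 0 ≤ x) :
    0 ≤ chanV lam x := by
  have h00 := hx 0
  have h01 := hx 1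
  have h02 := hx 2
  intro i
  simp only [chanV, Pi.zero_apply]
  fin_cases i <;> simp only [Fin.isValue, Fin.zero_eta, Fin.mk_one, Fin.reduceFinMk] <;>
    nlinarith [mul_nonneg (by linarith : (0 : ℝ) ≤ lam + 1 / 2) h00,
      mul_nonneg (by linarith : (0 : ℝ) ≤ lam + 1 / 2) h01,
      mul_nonneg (by linarith : (0 : ℝ) ≤ lam + 1 / 2) h02,
      mul_nonneg (by linarith : (0 : ℝ) ≤ 1 - lam) h00,
      mul_nonneg (by linarith : (0 : ℝ) ≤ 1 - lam) h01,
      mul_nonneg (by linarith : (0 : ℝ) ≤ 1 - lam) h02]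

/-- The channel functional correction. -/
theorem InG.chan {G : (Fin 3 → ℝ) → ℝ} (h : InG G) {lam : ℝ} (h0 : -(1 / 2) ≤ lam) (h1 : lam ≤ 1) :
    InG fun x => G (chanV lam x) - (x 0 * G (chanV lam (Pi.single 0 1))
      + x 1 * G (chanV lam (Pi.single 1 1)) + x 2 * G (chanV lam (Pi.single 2 1))) where
  sub := fun x y hx hy => by
    rw [chanV_add]
    have := h.sub _ _ (chanV_nonneg h0 h1 hx) (chanV_nonneg h0 h1 hy)
    simp only [Pi.add_apply]
    linarith
  hom := fun c x hc hx => by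
    rw [chanV_smul, h.hom _ _ hc (chanV_nonneg h0 h1 hx)]
    simp only [Pi.smul_apply, smul_eq_mul]
    ring
  vert := fun i => by
    fin_cases i <;> simp

theorem Dom.chan_le {l : ι → Fin 3 → ℝ} (hl : WSig l) {lam : ℝ} (h0 : -(1 / 2) ≤ lam) (h1 : lam ≤ 1)
    {f : ℕ → Fin 3 → ℝ} {c : ℝ} {R : ℕ[X]} (hD : Dom l f c R) {v : Fin 3 → ℝ}
    (hv : ∀ i, v i ≤ 1 - c * Phi (fun k => f k i) R) {G : (Fin 3 → ℝ) → ℝ} (hG : InG G) :
    ∑ t, G (chan lam l t) ≤ c * Phi (fun k => G (chanV lam (f k))) R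
      + (v 0 * G (chanV lam (Pi.single 0 1)) + v 1 * G (chanV lam (Pi.single 1 1))
        + v 2 * G (chanV lam (Pi.single 2 1))) := by
  have e := hD _ (hG.chan h0 h1)
  set g0 := G (chanV lam (Pi.single 0 1)) with hg0
  set g1 := G (chanV lam (Pi.single 1 1)) with hg1
  set g2 := G (chanV lam (Pi.single 2 1)) with hg2
  have hs : ∀ i : Fin 3, (0 : Fin 3 → ℝ) ≤ chanV lam (Pi.single i 1) :=
    fun i => chanV_nonneg h0 h1 (single_nonneg' i)
  have n0 : g0 ≤ 0 := hG.le_zero (hs 0)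
  have n1 : g1 ≤ 0 := hG.le_zero (hs 1)
  have n2 : g2 ≤ 0 := hG.le_zero (hs 2)
  have e1 : ∑ t, (G (chanV lam (l t)) - (l t 0 * g0 + l t 1 * g1 + l t 2 * g2))
      = ∑ t, G (chan lam l t) - (g0 + g1 + g2) := by
    rw [Finset.sum_sub_distrib, Finset.sum_add_distrib, Finset.sum_add_distrib,
      ← Finset.sum_mul, ← Finset.sum_mul, ← Finset.sum_mul, hl.tot, hl.tot, hl.tot]
    simp only [one_mul]
    rfl
  rw [e1] at e
  have e2 : Phi (fun k => G (chanV lam (f k)) - (f k 0 * g0 + f k 1 * g1 + f k 2 * g2)) R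
      = Phi (fun k => G (chanV lam (f k))) R
        - (Phi (fun k => f k 0) R * g0 + Phi (fun k => f k 1) R * g1 + Phi (fun k => f k 2) R * g2) := by
    rw [Phi_sub_fun, Phi_add_fun (fun k => f k 0 * g0 + f k 1 * g1), Phi_add_fun]
    have e3 : ∀ (i : Fin 3) (g : ℝ), Phi (fun k => f k i * g) R = Phi (fun k => f k i) R * g := by
      intro i g
      rw [mul_comm (Phi _ _), ← Phi_smul_fun]
      exact Phi_congr fun p _ => mul_comm _ _
    rw [e3, e3, e3]
  rw [e2] at e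
  have v0 := mul_le_mul_of_nonpos_right (hv 0) n0
  have v1 := mul_le_mul_of_nonpos_right (hv 1) n1
  have v2 := mul_le_mul_of_nonpos_right (hv 2) n2
  nlinarith

/-- The channel is a mixture of a stronger channel and its rotations. -/
theorem chanV_mix (μ μh : ℝ) (h : 0 < μh) (x : Fin 3 → ℝ) :
    chanV (-μ) x = (μ / μh) • chanV (-μh) x + ((1 - μ / μh) / 3) • (chanV (-μh) x
      + chanV (-μh) (fun i => x (permR i)) + chanV (-μh) (fun i => x (permR2 i))) := by
  funext i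
  have e0 : permR 0 = 1 := rfl
  have e1 : permR 1 = 2 := rfl
  have e2 : permR 2 = 0 := rfl
  have f0 : permR2 0 = 2 := rfl
  have f1 : permR2 1 = 0 := rfl
  have f2 : permR2 2 = 1 := rfl
  fin_cases i <;>
  · simp only [chanV, Pi.add_apply, Pi.smul_apply, smul_eq_mul, Fin.isValue, Fin.zero_eta, Fin.mk_one,
      Fin.reduceFinMk, e0, e1, e2, f0, f1, f2]
    field_simp
    ring

/-- Degradation: a weaker negative channel is dominated by a stronger one. -/
theorem degrade {l : ι → Fin 3 → ℝ} (hl : WSig l) {μ μh : ℝ} (h0 : 0 ≤ μ) (h1 : μ ≤ μh) (h2 : μh ≤ 1 / 2)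
    {G : (Fin 3 → ℝ) → ℝ} (hG : InG G) : ∑ t, G (chan (-μ) l t) ≤ ∑ t, G (chan (-μh) l t) := by
  rcases eq_or_lt_of_le (h0.trans h1) with hz | hpos
  · have : μ = μh := by linarith
    rw [this]
  set ν := μ / μh with hν
  have hν0 : 0 ≤ ν := div_nonneg h0 hpos.le
  have hν1 : ν ≤ 1 := (div_le_one hpos).mpr h1
  have hn := fun t : ι => (show (0 : Fin 3 → ℝ) ≤ l t from hl.nonneg t)
  have hl0 : -(1 / 2) ≤ -μh := by linarith
  have hl1 : -μh ≤ 1 := by linarith
  have hnr : ∀ t : ι, (0 : Fin 3 → ℝ) ≤ fun i => l t (permR i) := fun t i => hl.nonneg t _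
  have hnr2 : ∀ t : ι, (0 : Fin 3 → ℝ) ≤ fun i => l t (permR2 i) := fun t i => hl.nonneg t _
  have key : ∀ t, G (chanV (-μ) (l t)) ≤ ν * G (chanV (-μh) (l t)) + ((1 - ν) / 3) *
      (G (chanV (-μh) (l t)) + G (chanV (-μh) (fun i => l t (permR i)))
        + G (chanV (-μh) (fun i => l t (permR2 i)))) := by
    intro t
    rw [chanV_mix μ μh hpos (l t)]
    have a0 := chanV_nonneg hl0 hl1 (hn t)
    have a1 := chanV_nonneg hl0 hl1 (hnr t)
    have a2 := chanV_nonneg hl0 hl1 (hnr2 t)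
    have c1 : (0 : ℝ) ≤ (1 - ν) / 3 := by linarith
    have s1 := hG.sub _ _ (smul_nonneg hν0 a0)
      (smul_nonneg c1 (add_nonneg (add_nonneg a0 a1) a2))
    have s2 := hG.hom ν _ hν0 a0
    have s3 := hG.hom ((1 - ν) / 3) _ c1 (add_nonneg (add_nonneg a0 a1) a2)
    have s4 := hG.sub _ _ (add_nonneg a0 a1) a2
    have s5 := hG.sub _ _ a0 a1
    rw [s2, s3] at s1
    have s6 := mul_le_mul_of_nonneg_left (s4.trans (add_le_add_left s5 _)) c1
    linarith
  have rot : ∀ σ : Equiv.Perm (Fin 3),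
      ∑ t, G (chanV (-μh) (fun i => l t (σ i))) = ∑ t, G (chanV (-μh) (l t)) := by
    intro σ
    obtain ⟨π, hπ⟩ := hl.sym σ
    rw [← Equiv.sum_comp π (fun t => G (chanV (-μh) (l t)))]
    refine Finset.sum_congr rfl fun t _ => ?_
    congr 2
    funext i
    rw [hπ]
  have e0 : ∀ m : ℝ, ∑ t, G (chan m l t) = ∑ t, G (chanV m (l t)) := fun m => rfl
  rw [e0, e0]
  refine (Finset.sum_le_sum fun t _ => key t).trans ?_
  rw [Finset.sum_add_distrib, ← Finset.mul_sum, ← Finset.mul_sum, Finset.sum_add_distrib,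
    Finset.sum_add_distrib, rot permR, rot permR2]
  apply le_of_eq
  ring

/-- Splitting: a vector bounded below by a nonnegative combination. -/
theorem InG.split3 {G : (Fin 3 → ℝ) → ℝ} (hG : InG G) {x y1 y2 y3 : Fin 3 → ℝ} {a1 a2 a3 b : ℝ}
    (hb : 0 < b) (ha1 : 0 ≤ a1) (ha2 : 0 ≤ a2) (ha3 : 0 ≤ a3) (h1 : 0 ≤ y1) (h2 : 0 ≤ y2) (h3 : 0 ≤ y3)
    (hle : ∀ i, a1 * y1 i + a2 * y2 i + a3 * y3 i ≤ b * x i) :
    b * G x ≤ a1 * G y1 + a2 * G y2 + a3 * G y3 := by
  set r : Fin 3 → ℝ := b • x - (a1 • y1 + a2 • y2 + a3 • y3) with hr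
  have hr0 : 0 ≤ r := by
    intro i
    simp only [hr, Pi.sub_apply, Pi.add_apply, Pi.smul_apply, smul_eq_mul, Pi.zero_apply]
    linarith [hle i]
  have e : b • x = a1 • y1 + a2 • y2 + a3 • y3 + r := by
    rw [hr]; abel
  have hx : 0 ≤ x := by
    intro i
    have := hle i
    have p1 := mul_nonneg ha1 (h1 i)
    have p2 := mul_nonneg ha2 (h2 i)
    have p3 := mul_nonneg ha3 (h3 i)
    have : 0 ≤ b * x i := by linarith
    exact nonneg_of_mul_nonneg_right this hb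
  rw [← hG.hom b x hb.le hx, e]
  have s1 := smul_nonneg ha1 h1
  have s2 := smul_nonneg ha2 h2
  have s3 := smul_nonneg ha3 h3
  have t1 := hG.sub _ _ (add_nonneg (add_nonneg s1 s2) s3) hr0
  have t2 := hG.sub _ _ (add_nonneg s1 s2) s3
  have t3 := hG.sub _ _ s1 s2
  rw [hG.hom a1 _ ha1 h1] at t3
  rw [hG.hom a2 _ ha2 h2] at t3
  rw [hG.hom a3 _ ha3 h3] at t2
  have := hG.le_zero hr0
  linarith

end Vale.Agent.Lib.P154.Lat
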