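import Vale.Agent.Lib.P154.Lat.Step2

/-!
The functionals: the chi-square functional and the second moment of `A`, as members of the class,
and the final numerical reading of a dominating law.
-/

noncomputable section

open Polynomial

namespace Vale.Agent.Lib.P154.Lat

/-- The second moment density. -/
def G2 (a b c : ℝ) : ℝ := (a ^ 2 + b ^ 2 + c ^ 2 - a * b - b * c - c * a) ^ 2 / (a + b + c) ^ 3

/-- The second moment functional. -/
def mm {ι : Type*} [Fintype ι] (l : ι → Fin 3 → ℝ) : ℝ := (1 / 3) * ∑ t, G2 (l t 0) (l t 1) (l t 2)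

/-- The elementary convexity. -/
theorem sq_div_add_le {n n' : ℝ} (hn : 0 ≤ n) (hn' : 0 ≤ n') (x y : ℝ) (hx : n = 0 → x = 0) (hy : n' = 0 → y = 0) :
    (x + y) ^ 2 / (n + n') ≤ x ^ 2 / n + y ^ 2 / n' := by
  rcases eq_or_lt_of_le hn with h0 | h0
  · rw [← h0, hx h0.symm]; simp
  rcases eq_or_lt_of_le hn' with h1 | h1
  · rw [← h1, hy h1.symm]; simp
  rw [div_add_div _ _ h0.ne' h1.ne', div_le_div_iff₀ (by positivity) (by positivity)]
  have e : (x ^ 2 * n' + n * y ^ 2) * (n + n') - (x + y) ^ 2 * (n * n') = (x * n' - y * n) ^ 2 := by ring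
  nlinarith [sq_nonneg (x * n' - y * n)]

theorem N_zero {x : Fin 3 → ℝ} (hx : 0 ≤ x) (h : x 0 + x 1 + x 2 = 0) : x 0 = 0 ∧ x 1 = 0 ∧ x 2 = 0 := by
  have h0 := hx 0
  have h1 := hx 1
  have h2 := hx 2
  simp only [Pi.zero_apply] at h0 h1 h2
  exact ⟨by linarith, by linarith, by linarith⟩

/-- The functional for the chi-square. -/
def GF (x : Fin 3 → ℝ) : ℝ := F3 (x 0) (x 1) (x 2) - (x 0 + x 1 + x 2)

theorem F3_sub (x y : Fin 3 → ℝ) (hx : 0 ≤ x) (hy : 0 ≤ y) :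
    F3 (x 0 + y 0) (x 1 + y 1) (x 2 + y 2) ≤ F3 (x 0) (x 1) (x 2) + F3 (y 0) (y 1) (y 2) := by
  unfold F3
  have hnx : 0 ≤ x 0 + x 1 + x 2 := by
    have h0 := hx 0; have h1 := hx 1; have h2 := hx 2
    simp only [Pi.zero_apply] at h0 h1 h2; linarith
  have hny : 0 ≤ y 0 + y 1 + y 2 := by
    have h0 := hy 0; have h1 := hy 1; have h2 := hy 2
    simp only [Pi.zero_apply] at h0 h1 h2; linarith
  have e : x 0 + y 0 + (x 1 + y 1) + (x 2 + y 2) = (x 0 + x 1 + x 2) + (y 0 + y 1 + y 2) := by ring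
  rw [e]
  simp only [add_div]
  have a0 := sq_div_add_le hnx hny (x 0) (y 0) (fun h => (N_zero hx h).1) (fun h => (N_zero hy h).1)
  have a1 := sq_div_add_le hnx hny (x 1) (y 1) (fun h => (N_zero hx h).2.1) (fun h => (N_zero hy h).2.1)
  have a2 := sq_div_add_le hnx hny (x 2) (y 2) (fun h => (N_zero hx h).2.2) (fun h => (N_zero hy h).2.2)
  linarith

theorem GF_inG : InG GF where
  sub := fun x y hx hy => by
    have := F3_sub x y hx hy
    unfold GF
    simp only [Pi.add_apply]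
    linarith
  hom := fun c x hc hx => by
    unfold GF F3
    simp only [Pi.smul_apply, smul_eq_mul]
    rcases eq_or_lt_of_le hc with h0 | h0
    · rw [← h0]; simp
    by_cases hn : x 0 + x 1 + x 2 = 0
    · obtain ⟨a, b, d⟩ := N_zero hx hn
      rw [a, b, d]; simp
    · have e : c * x 0 + c * x 1 + c * x 2 = c * (x 0 + x 1 + x 2) := by ring
      rw [e]
      field_simp
  vert := fun i => by
    unfold GF F3
    fin_cases i <;> simp

/-- The functional for the second moment. -/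
def GM (x : Fin 3 → ℝ) : ℝ := G2 (x 0) (x 1) (x 2) - (x 0 + x 1 + x 2)

theorem Q_div_sub (x y : Fin 3 → ℝ) (hx : 0 ≤ x) (hy : 0 ≤ y) :
    ((x 0 + y 0) ^ 2 + (x 1 + y 1) ^ 2 + (x 2 + y 2) ^ 2 - (x 0 + y 0) * (x 1 + y 1) - (x 1 + y 1) * (x 2 + y 2)
        - (x 2 + y 2) * (x 0 + y 0)) / ((x 0 + x 1 + x 2) + (y 0 + y 1 + y 2))
      ≤ (x 0 ^ 2 + x 1 ^ 2 + x 2 ^ 2 - x 0 * x 1 - x 1 * x 2 - x 2 * x 0) / (x 0 + x 1 + x 2)
        + (y 0 ^ 2 + y 1 ^ 2 + y 2 ^ 2 - y 0 * y 1 - y 1 * y 2 - y 2 * y 0) / (y 0 + y 1 + y 2) := by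
  have key : ∀ u : Fin 3 → ℝ, (u 0 ^ 2 + u 1 ^ 2 + u 2 ^ 2 - u 0 * u 1 - u 1 * u 2 - u 2 * u 0) / (u 0 + u 1 + u 2)
      = (3 * F3 (u 0) (u 1) (u 2) - (u 0 + u 1 + u 2)) / 2 := by
    intro u
    unfold F3
    by_cases hn : u 0 + u 1 + u 2 = 0
    · rw [hn]; simp
    · field_simp
      ring
  have a := F3_sub x y hx hy
  have b := key (x + y)
  simp only [Pi.add_apply] at b
  have e : x 0 + y 0 + (x 1 + y 1) + (x 2 + y 2) = (x 0 + x 1 + x 2) + (y 0 + y 1 + y 2) := by ring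
  rw [← e, b, key x, key y]
  linarith

theorem G2_eq (a b c : ℝ) : G2 a b c
    = ((a ^ 2 + b ^ 2 + c ^ 2 - a * b - b * c - c * a) / (a + b + c)) ^ 2 / (a + b + c) := by
  unfold G2
  by_cases hn : a + b + c = 0
  · rw [hn]; simp
  · field_simp

theorem Q_nonneg (a b c : ℝ) : 0 ≤ a ^ 2 + b ^ 2 + c ^ 2 - a * b - b * c - c * a := by
  nlinarith [sq_nonneg (a - b), sq_nonneg (b - c), sq_nonneg (c - a)]

theorem GM_inG : InG GM where
  sub := fun x y hx hy => by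
    unfold GM
    simp only [Pi.add_apply]
    have hnx : 0 ≤ x 0 + x 1 + x 2 := by
      have h0 := hx 0; have h1 := hx 1; have h2 := hx 2
      simp only [Pi.zero_apply] at h0 h1 h2; linarith
    have hny : 0 ≤ y 0 + y 1 + y 2 := by
      have h0 := hy 0; have h1 := hy 1; have h2 := hy 2
      simp only [Pi.zero_apply] at h0 h1 h2; linarith
    set H := (x 0 ^ 2 + x 1 ^ 2 + x 2 ^ 2 - x 0 * x 1 - x 1 * x 2 - x 2 * x 0) / (x 0 + x 1 + x 2) with hH
    set H' := (y 0 ^ 2 + y 1 ^ 2 + y 2 ^ 2 - y 0 * y 1 - y 1 * y 2 - y 2 * y 0) / (y 0 + y 1 + y 2) with hH'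
    have hsum := sq_div_add_le hnx hny H H' (fun h => by rw [hH, h]; simp) (fun h => by rw [hH', h]; simp)
    have e : x 0 + y 0 + (x 1 + y 1) + (x 2 + y 2) = (x 0 + x 1 + x 2) + (y 0 + y 1 + y 2) := by ring
    have h1 := Q_div_sub x y hx hy
    have h2 : 0 ≤ ((x 0 + y 0) ^ 2 + (x 1 + y 1) ^ 2 + (x 2 + y 2) ^ 2 - (x 0 + y 0) * (x 1 + y 1) - (x 1 + y 1) * (x 2 + y 2)
        - (x 2 + y 2) * (x 0 + y 0)) / ((x 0 + x 1 + x 2) + (y 0 + y 1 + y 2)) :=
      div_nonneg (Q_nonneg _ _ _) (by linarith)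
    have h3 := pow_le_pow_left₀ h2 h1 2
    have h4 : G2 (x 0 + y 0) (x 1 + y 1) (x 2 + y 2) ≤ (H + H') ^ 2 / ((x 0 + x 1 + x 2) + (y 0 + y 1 + y 2)) := by
      rw [G2_eq, e]
      exact div_le_div_of_nonneg_right h3 (by linarith)
    have h5 : G2 (x 0) (x 1) (x 2) = H ^ 2 / (x 0 + x 1 + x 2) := G2_eq _ _ _
    have h6 : G2 (y 0) (y 1) (y 2) = H' ^ 2 / (y 0 + y 1 + y 2) := G2_eq _ _ _
    rw [h5, h6]
    linarith
  hom := fun c x hc hx => by
    unfold GM G2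
    simp only [Pi.smul_apply, smul_eq_mul]
    rcases eq_or_lt_of_le hc with h0 | h0
    · rw [← h0]; simp
    by_cases hn : x 0 + x 1 + x 2 = 0
    · obtain ⟨a, b, d⟩ := N_zero hx hn
      rw [a, b, d]; simp
    · have e : c * x 0 + c * x 1 + c * x 2 = c * (x 0 + x 1 + x 2) := by ring
      rw [e]
      field_simp
  vert := fun i => by
    unfold GM G2
    fin_cases i <;> simp

/-- The value of a table as a sum of coefficients. -/
def val (W : ℕ) (t : Trie) : ℕ → ℕ :=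
  Trie.rec (motive := fun _ => ℕ → ℕ)
    (fun _ => 0)
    (fun c1 _ c2 _ c3 _ x => (x % 2 ^ W) * (c1 + c2 + c3))
    (fun m _ _ _ _ ihl ihr x => (ihl (x % (1 <<< (W * m)))) + (ihr (x >>> (W * m))))
    t

theorem val_eq (W : ℕ) : ∀ (t : Trie) (x : ℕ), (sem W t x).eval 1 = val W t x
  | .nil, x => by simp [sem, val]
  | .leaf c1 p1 c2 p2 c3 p3, x => by
    have e : val W (.leaf c1 p1 c2 p2 c3 p3) x = (x % 2 ^ W) * (c1 + c2 + c3) := rfl
    rw [e]
    simp [sem]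
  | .node m sl sr l r, x => by
    have e : val W (.node m sl sr l r) x = val W l (x % (1 <<< (W * m))) + val W r (x >>> (W * m)) := rfl
    rw [e, sem, Nat.one_shiftLeft, eval_add, eval_mul, eval_mul, val_eq W l, val_eq W r, Nat.shiftRight_eq_div_pow]
    simp

theorem Phi_neg_one (R : ℕ[X]) : Phi (fun _ => -1) R = -(R.eval 1 : ℕ) := by
  induction R using Polynomial.induction_on' with
  | add p q hp hq =>
    rw [Phi_add, hp, hq, eval_add]
    push_cast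
    ring
  | monomial k a =>
    rw [Phi_monomial, eval_monomial]
    simp

/-- The checks for the functionals: a lower bound of the density at a ray. -/
def okA (r s U z K o E k c1 c2 c3 : ℕ) : Bool :=
  let a := pwN r s U (e1N U z o (k % K) (k / K))
  let b := pwN r s U (e2N U z o (k % K))
  let c := pwN r s U (e2N U z o (k / K))
  guardB U z K o k &&
    Nat.ble ((c1 + c2 + c3) * ((a + b + c) * (r ^ U * s ^ (2 * U)))) (2 ^ E * (2 * (a * b + b * c + c * a)))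

def okM (r s U z K o E k c1 c2 c3 : ℕ) : Bool :=
  let a := pwN r s U (e1N U z o (k % K) (k / K))
  let b := pwN r s U (e2N U z o (k % K))
  let c := pwN r s U (e2N U z o (k / K))
  let n := a + b + c
  let q := a * a + b * b + c * c - (a * b + b * c + c * a)
  guardB U z K o k &&
    Nat.ble ((c1 + c2 + c3) * (n * n * n * (r ^ U * s ^ (2 * U))) + 2 ^ E * (q * q)) (2 ^ E * (n * n * n * n))

theorem okA_spec {r s U z K o E k c1 c2 c3 : ℕ} (hr : 0 < r) (hs : 0 < s)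
    (h : okA r s U z K o E k c1 c2 c3 = true) :
    (2 : ℝ) ^ E * GF (rayF ((r : ℝ) / s) z K o k) ≤ -((c1 : ℝ) + c2 + c3) := by
  simp only [okA, Bool.and_eq_true, Nat.ble_eq] at h
  obtain ⟨g, m⟩ := h
  have G := guard_of g
  have hC := scaleS_pos (U := U) hr hs
  have m' : (((c1 + c2 + c3) * ((pwN r s U (e1N U z o (k % K) (k / K)) + pwN r s U (e2N U z o (k % K)) + pwN r s U (e2N U z o (k / K))) * (r ^ U * s ^ (2 * U))) : ℕ) : ℝ) ≤ _ :=
    (Nat.cast_le (α := ℝ)).mpr m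
  push_cast at m'
  simp only [← ray_real0 hr hs G, ← ray_real1 hr hs G, ← ray_real2 hr hs G] at m'
  have hρ : 0 < (r : ℝ) / s := by positivity
  have x0 := rayF_nonneg hρ z K o k 0
  have x1 := rayF_nonneg hρ z K o k 1
  have x2 := rayF_nonneg hρ z K o k 2
  simp only [Pi.zero_apply] at x0 x1 x2
  set a := rayF ((r : ℝ) / s) z K o k 0 with ha
  set b := rayF ((r : ℝ) / s) z K o k 1 with hb
  set c := rayF ((r : ℝ) / s) z K o k 2 with hc
  have hapos : 0 < a := by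
    rw [ha]
    simp only [rayF, Matrix.cons_val_zero]
    positivity
  have eS : ((r : ℝ) ^ U * (s : ℝ) ^ (2 * U)) = scaleS r s U := rfl
  rw [eS] at m'
  set S := scaleS r s U with hS
  unfold GF F3
  have hn : 0 < a + b + c := by linarith
  have e : a ^ 2 + b ^ 2 + c ^ 2 = (a + b + c) ^ 2 - 2 * (a * b + b * c + c * a) := by ring
  have key : ((c1 : ℝ) + c2 + c3) * (a + b + c) ≤ 2 ^ E * (2 * (a * b + b * c + c * a)) := by
    have h2 : (((c1 : ℝ) + c2 + c3) * (a + b + c)) * (S * S) ≤ (2 ^ E * (2 * (a * b + b * c + c * a))) * (S * S) := by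
      calc _ = ((c1 : ℝ) + c2 + c3) * ((a * S + b * S + c * S) * S) := by ring
        _ ≤ _ := m'
        _ = _ := by ring
    exact le_of_mul_le_mul_right h2 (by positivity)
  have e2 : (a ^ 2 + b ^ 2 + c ^ 2) / (a + b + c) - (a + b + c) = -(2 * (a * b + b * c + c * a)) / (a + b + c) := by
    rw [e]
    field_simp
    ring
  rw [show rayF ((r : ℝ) / s) z K o k 0 = a from rfl]
  simp only [← ha, ← hb, ← hc]
  rw [e2]
  have k2 : (c1 : ℝ) + c2 + c3 ≤ 2 ^ E * (2 * (a * b + b * c + c * a)) / (a + b + c) := by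
    rw [le_div_iff₀ hn]
    exact key
  have e3 : (2 : ℝ) ^ E * (-(2 * (a * b + b * c + c * a)) / (a + b + c))
      = -(2 ^ E * (2 * (a * b + b * c + c * a)) / (a + b + c)) := by ring
  rw [e3]
  linarith

theorem okM_spec {r s U z K o E k c1 c2 c3 : ℕ} (hr : 0 < r) (hs : 0 < s)
    (h : okM r s U z K o E k c1 c2 c3 = true) :
    (2 : ℝ) ^ E * GM (rayF ((r : ℝ) / s) z K o k) ≤ -((c1 : ℝ) + c2 + c3) := by
  simp only [okM, Bool.and_eq_true, Nat.ble_eq] at h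
  obtain ⟨g, m⟩ := h
  have G := guard_of g
  have hC := scaleS_pos (U := U) hr hs
  set A := pwN r s U (e1N U z o (k % K) (k / K)) with hA
  set B := pwN r s U (e2N U z o (k % K)) with hB
  set D := pwN r s U (e2N U z o (k / K)) with hD
  have hρ : 0 < (r : ℝ) / s := by positivity
  have x0 := rayF_nonneg hρ z K o k 0
  have x1 := rayF_nonneg hρ z K o k 1
  have x2 := rayF_nonneg hρ z K o k 2
  simp only [Pi.zero_apply] at x0 x1 x2
  have ra := ray_real0 hr hs G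
  have rb := ray_real1 hr hs G
  have rc := ray_real2 hr hs G
  rw [← hA] at ra
  rw [← hB] at rb
  rw [← hD] at rc
  set a := rayF ((r : ℝ) / s) z K o k 0 with ha
  set b := rayF ((r : ℝ) / s) z K o k 1 with hb
  set c := rayF ((r : ℝ) / s) z K o k 2 with hc
  have hapos : 0 < a := by
    rw [ha]
    simp only [rayF, Matrix.cons_val_zero]
    positivity
  set S := scaleS r s U with hS
  have hQle : A * B + B * D + D * A ≤ A * A + B * B + D * D := by
    have : ((A * B + B * D + D * A : ℕ) : ℝ) ≤ ((A * A + B * B + D * D : ℕ) : ℝ) := by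
      push_cast
      nlinarith [sq_nonneg ((A : ℝ) - B), sq_nonneg ((B : ℝ) - D), sq_nonneg ((D : ℝ) - A)]
    exact_mod_cast this
  have hQ : ((A * A + B * B + D * D - (A * B + B * D + D * A) : ℕ) : ℝ)
      = (a ^ 2 + b ^ 2 + c ^ 2 - a * b - b * c - c * a) * S ^ 2 := by
    rw [Nat.cast_sub hQle]
    push_cast
    rw [← ra, ← rb, ← rc]
    ring
  set Q := a ^ 2 + b ^ 2 + c ^ 2 - a * b - b * c - c * a with hQd
  have hn : 0 < a + b + c := by linarith
  set n := a + b + c with hnd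
  have eN : ((A + B + D : ℕ) : ℝ) = n * S := by
    push_cast
    rw [← ra, ← rb, ← rc, hnd]
    ring
  have eS : (((r ^ U * s ^ (2 * U) : ℕ)) : ℝ) = S := by
    rw [hS]; unfold scaleS; push_cast; ring
  generalize hNN : A + B + D = NN at m eN
  generalize hQQ : A * A + B * B + D * D - (A * B + B * D + D * A) = QQ at m hQ
  generalize hSS : r ^ U * s ^ (2 * U) = SS at m eS
  have m' : (((c1 + c2 + c3 : ℕ) : ℝ)) * ((NN : ℝ) * NN * NN * SS) + 2 ^ E * ((QQ : ℝ) * QQ)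
      ≤ 2 ^ E * ((NN : ℝ) * NN * NN * NN) := by exact_mod_cast m
  rw [eN, eS, hQ] at m'
  push_cast at m'
  have key : ((c1 : ℝ) + c2 + c3) * n ^ 3 + 2 ^ E * Q ^ 2 ≤ 2 ^ E * n ^ 4 := by
    have h2 : (((c1 : ℝ) + c2 + c3) * n ^ 3 + 2 ^ E * Q ^ 2) * S ^ 4 ≤ (2 ^ E * n ^ 4) * S ^ 4 := by
      calc _ = ((c1 : ℝ) + c2 + c3) * (n * S * (n * S) * (n * S) * S) + 2 ^ E * (Q * S ^ 2 * (Q * S ^ 2)) := by ring
        _ ≤ _ := m'
        _ = _ := by ring
    exact le_of_mul_le_mul_right h2 (by positivity)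
  unfold GM G2
  simp only [← ha, ← hb, ← hc, ← hQd, ← hnd]
  have e2 : Q ^ 2 / n ^ 3 - n = (Q ^ 2 - n ^ 4) / n ^ 3 := by
    field_simp
  have k2 : (c1 : ℝ) + c2 + c3 ≤ 2 ^ E * (n ^ 4 - Q ^ 2) / n ^ 3 := by
    rw [le_div_iff₀ (by positivity)]
    linarith
  rw [e2]
  have e3 : (2 : ℝ) ^ E * ((Q ^ 2 - n ^ 4) / n ^ 3) = -(2 ^ E * (n ^ 4 - Q ^ 2) / n ^ 3) := by ring
  rw [e3]
  linarith

variable {ι : Type*} [Fintype ι]

theorem sum_GF {l : ι → Fin 3 → ℝ} (hl : WSig l) : ∑ t, GF (l t) = sumF l - 3 := by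
  unfold GF sumF
  rw [Finset.sum_sub_distrib, sum_N hl.tot]

theorem sum_GM {l : ι → Fin 3 → ℝ} (hl : WSig l) :
    ∑ t, GM (l t) = ∑ t, G2 (l t 0) (l t 1) (l t 2) - 3 := by
  unfold GM
  rw [Finset.sum_sub_distrib, sum_N hl.tot]

/-- Reading a bound from a table. -/
theorem read_val {W E : ℕ} (hW : 1 ≤ W) {G : (Fin 3 → ℝ) → ℝ} {f : ℕ → Fin 3 → ℝ} (hf : ∀ k, 0 ≤ f k)
    (hG : InG G) {ok : ℕ → ℕ → ℕ → ℕ → ℕ → ℕ → ℕ → Bool}
    (hok : ∀ k t1 t2 t3 c1 c2 c3, ok k t1 t2 t3 c1 c2 c3 = true →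
      (2 : ℝ) ^ E * G (f k) ≤ -((c1 : ℝ) + c2 + c3)) {t : Trie} (hc : checkT ok t 0 0 = true) (T : ℕ) :
    (2 : ℝ) ^ E * Phi (fun k => G (f k)) (pol (2 ^ W) T) ≤ -(val W t T : ℝ) := by
  have := trie_main (W := W) hW (F := fun k => G (f k)) (Ψ := fun _ => -1) (fun k => hG.le_zero (hf k)) E
    (ok := ok) (fun k t1 t2 t3 c1 c2 c3 h => by
      have := hok k t1 t2 t3 c1 c2 c3 h
      linarith) t T 0 0 hc
  simp only [zero_add] at this
  rw [Phi_neg_one, val_eq] at this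
  exact this

/-- Upper bound for the chi-square functional. -/
theorem read_xx {W E : ℕ} (hW : 1 ≤ W) {c : ℝ} (hc : 0 ≤ c) {l : ι → Fin 3 → ℝ} (hl : WSig l)
    {f : ℕ → Fin 3 → ℝ} (hf : ∀ k, 0 ≤ f k) {T : ℕ} (hD : Dom l f c (pol (2 ^ W) T))
    {ok : ℕ → ℕ → ℕ → ℕ → ℕ → ℕ → ℕ → Bool}
    (hok : ∀ k t1 t2 t3 c1 c2 c3, ok k t1 t2 t3 c1 c2 c3 = true →
      (2 : ℝ) ^ E * GF (f k) ≤ -((c1 : ℝ) + c2 + c3)) {t : Trie} (hch : checkT ok t 0 0 = true) :
    xx l ≤ 2 / 3 - (1 / 3) * (c * ((val W t T : ℝ) / 2 ^ E)) := by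
  have h1 := hD GF GF_inG
  have h2 := read_val (E := E) hW hf GF_inG hok hch T
  rw [sum_GF hl] at h1
  have h3 : Phi (fun k => GF (f k)) (pol (2 ^ W) T) ≤ -((val W t T : ℝ) / 2 ^ E) := by
    have p : (0 : ℝ) < 2 ^ E := by positivity
    rw [le_neg_iff_add_nonpos_left, ← le_neg_iff_add_nonpos_left, le_neg, div_le_iff₀ p]
    nlinarith
  have h4 := mul_le_mul_of_nonneg_left h3 hc
  unfold xx
  nlinarith

/-- Upper bound for the second moment functional. -/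
theorem read_mm {W E : ℕ} (hW : 1 ≤ W) {c : ℝ} (hc : 0 ≤ c) {l : ι → Fin 3 → ℝ} (hl : WSig l)
    {f : ℕ → Fin 3 → ℝ} (hf : ∀ k, 0 ≤ f k) {T : ℕ} (hD : Dom l f c (pol (2 ^ W) T))
    {ok : ℕ → ℕ → ℕ → ℕ → ℕ → ℕ → ℕ → Bool}
    (hok : ∀ k t1 t2 t3 c1 c2 c3, ok k t1 t2 t3 c1 c2 c3 = true →
      (2 : ℝ) ^ E * GM (f k) ≤ -((c1 : ℝ) + c2 + c3)) {t : Trie} (hch : checkT ok t 0 0 = true) :
    mm l ≤ 1 - (1 / 3) * (c * ((val W t T : ℝ) / 2 ^ E)) := by
  have h1 := hD GM GM_inG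
  have h2 := read_val (E := E) hW hf GM_inG hok hch T
  rw [sum_GM hl] at h1
  have h3 : Phi (fun k => GM (f k)) (pol (2 ^ W) T) ≤ -((val W t T : ℝ) / 2 ^ E) := by
    have p : (0 : ℝ) < 2 ^ E := by positivity
    rw [le_neg_iff_add_nonpos_left, ← le_neg_iff_add_nonpos_left, le_neg, div_le_iff₀ p]
    nlinarith
  have h4 := mul_le_mul_of_nonneg_left h3 hc
  unfold mm
  nlinarith

end Vale.Agent.Lib.P154.Lat
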