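import Vale.Agent.Lib.P154.Lat.Final
import Vale.Agent.Lib.P154.NegTree

/-!
Iterating the dominating law along the levels of the tree.
-/

noncomputable section

open Polynomial

namespace Vale.Agent.Lib.P154.Lat

namespace Cfg

variable {C : Cfg} {ι' : Type*} [Fintype ι']

/-- The level invariant at the source lattice. -/
def LInv (C : Cfg) (μ : ℝ) (n Q : ℕ) : Prop :=
  Dom (chan (-μ) (lev C.d (-μ) n)) C.fQ C.cc (pol (2 ^ C.W) Q)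
    ∧ QInv C.W C.w C.K C.I (C.K * C.J) Q

/-- The level invariant at the target lattice. -/
def LInv' (C : Cfg) (μ : ℝ) (n Q : ℕ) : Prop :=
  Dom (chan (-μ) (lev C.d (-μ) n)) C.fQ' C.cc (pol (2 ^ C.W) Q)
    ∧ QInv C.W C.w C.K' C.I' (C.K' * C.J') Q

theorem lev_ws (d : ℕ) {μ : ℝ} (h0 : 0 ≤ μ) (h1 : μ < 1 / 2) (n : ℕ) : WSig (lev d (-μ) n) :=
  lev_wsig' (by linarith) (by linarith) n

theorem chan_nonneg' {l : ι' → Fin 3 → ℝ} (hl : WSig l) {μ : ℝ} (h0 : 0 ≤ μ) (h1 : μ < 1 / 2) (t : ι') :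
    (0 : Fin 3 → ℝ) ≤ chan (-μ) l t :=
  chanV_nonneg (by linarith) (by linarith) (hl.nonneg t)

theorem initQ_lev (h : C.Valid) {μ : ℝ} (h0 : 0 ≤ μ) (h1 : μ < 1 / 2) (hμ : μ ≤ C.mu) :
    C.LInv' μ 0 C.initQ := by
  have F := h.facts
  obtain ⟨a, b⟩ := initQ_dom h (lev_zero_wsig C.d (-μ))
  exact ⟨fun G hG => (degrade (lev_zero_wsig C.d (-μ)) h0 hμ F.mu_le hG).trans (a G hG), b⟩

theorem stepQ_lev (h : C.Valid) {μ : ℝ} (h0 : 0 ≤ μ) (h1 : μ < 1 / 2) (hμ : μ ≤ C.mu) {n Q : ℕ}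
    (hI : C.LInv μ n Q) : C.LInv' μ (n + 1) (C.stepQ Q) := by
  have F := h.facts
  have hW := lev_ws C.d h0 h1 n
  have hW' := lev_ws C.d h0 h1 (n + 1)
  unfold LInv' 
  rw [lev_succ] at hW' ⊢
  obtain ⟨a, b⟩ := stepQ_dom h (fun t => chan_nonneg' hW h0 h1 t) hW' hI.1 hI.2
  exact ⟨fun G hG => (degrade hW' h0 hμ F.mu_le hG).trans (a G hG), b⟩

/-- The target lattice of a configuration is the source lattice of the next. -/
def Follows (C C' : Cfg) : Prop :=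
  C'.z = C.z' ∧ C'.K = C.K' ∧ C'.o = C.o' ∧ C'.I = C.I' ∧ C'.J = C.J' ∧ C'.W = C.W ∧ C'.w = C.w ∧
    C'.D = C.D ∧ C'.r = C.r ∧ C'.s = C.s ∧ C'.d = C.d

theorem follows_inv {C C' : Cfg} (hf : Follows C C') {μ : ℝ} {n Q : ℕ} (h : C.LInv' μ n Q) :
    C'.LInv μ n Q := by
  obtain ⟨e1, e2, e3, e4, e5, e6, e7, e8, e9, e10, e11⟩ := hf
  unfold LInv LInv' fQ fQ' rho cc at *
  rw [e1, e2, e3, e4, e5, e6, e7, e8, e9, e10, e11]
  exact h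

/-- Iterates of the step. -/
def iterQ (C : Cfg) (k Q : ℕ) : ℕ := Nat.rec (motive := fun _ => ℕ) Q (fun _ ih => C.stepQ ih) k

theorem iterQ_lev (h : C.Valid) (hs : Follows C C) {μ : ℝ} (h0 : 0 ≤ μ) (h1 : μ < 1 / 2) (hμ : μ ≤ C.mu)
    {n Q : ℕ} (hI : C.LInv μ n Q) (k : ℕ) : C.LInv μ (n + k) (iterQ C k Q) := by
  induction k with
  | zero => exact hI
  | succ k ih =>
    exact follows_inv hs (stepQ_lev h h0 h1 hμ ih)

theorem ok_A_hok (C : Cfg) (F : Facts C) :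
    ∀ k t1 t2 t3 c1 c2 c3, (fun k (_ _ _ : ℕ) c1 c2 c3 => okA C.r C.s C.U C.z C.K (C.d * C.o) C.E k c1 c2 c3)
      k t1 t2 t3 c1 c2 c3 = true → (2 : ℝ) ^ C.E * GF (C.fT C.d k) ≤ -((c1 : ℝ) + c2 + c3) :=
  fun _ _ _ _ _ _ _ h => okA_spec F.hr F.hs h

theorem ok_M_hok (C : Cfg) (F : Facts C) :
    ∀ k t1 t2 t3 c1 c2 c3, (fun k (_ _ _ : ℕ) c1 c2 c3 => okM C.r C.s C.U C.z C.K (C.d * C.o) C.E k c1 c2 c3)
      k t1 t2 t3 c1 c2 c3 = true → (2 : ℝ) ^ C.E * GM (C.fT C.d k) ≤ -((c1 : ℝ) + c2 + c3) :=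
  fun _ _ _ _ _ _ _ h => okM_spec F.hr F.hs h

/-- The final reading: with the last law, bounds for both functionals at the next level. -/
theorem final_read (h : C.Valid) {μ : ℝ} (h0 : 0 ≤ μ) (h1 : μ < 1 / 2) {n Q : ℕ} (hI : C.LInv μ n Q)
    {tA tM : Trie}
    (hA : checkT (fun k _ _ _ c1 c2 c3 => okA C.r C.s C.U C.z C.K (C.d * C.o) C.E k c1 c2 c3) tA 0 0 = true)
    (hM : checkT (fun k _ _ _ c1 c2 c3 => okM C.r C.s C.U C.z C.K (C.d * C.o) C.E k c1 c2 c3) tM 0 0 = true) :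
    xx (lev C.d (-μ) (n + 1)) ≤
        2 / 3 - (1 / 3) * (C.cc * ((val C.W tA (C.powT Q) : ℝ) / 2 ^ C.E))
      ∧ mm (lev C.d (-μ) (n + 1)) ≤
        1 - (1 / 3) * (C.cc * ((val C.W tM (C.powT Q) : ℝ) / 2 ^ C.E)) := by
  have F := h.facts
  have hW := lev_ws C.d h0 h1 n
  have hW' := lev_ws C.d h0 h1 (n + 1)
  have hρ := F.rho_pos
  obtain ⟨cD, -, -, -⟩ := chain_spec (d := C.d) (LT := C.LT) hρ F.hW F.hD F.hDw F.hI F.hL F.hmul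
    (fun t => chan_nonneg' hW h0 h1 t) hI.2 hI.1
    (τ := fun i => ((2 : ℝ) ^ C.D)⁻¹ * Phi (fun k => rayF C.rho C.z C.K C.o k i) (pol (2 ^ C.W) Q))
    (fun i => mul_nonneg (by positivity) (Phi_nonneg fun p => rayF_nonneg hρ _ _ _ _ i))
    (fun i => le_rfl) C.d le_rfl
  rw [← lev_succ] at cD
  exact ⟨read_xx (E := C.E) F.hW F.cc_pos.le hW' (f := C.fT C.d) (fun k => rayF_nonneg hρ _ _ _ _) cD
      (ok_A_hok C F) hA,
    read_mm (E := C.E) F.hW F.cc_pos.le hW' (f := C.fT C.d) (fun k => rayF_nonneg hρ _ _ _ _) cD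
      (ok_M_hok C F) hM⟩

end Cfg

end Vale.Agent.Lib.P154.Lat
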