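import Vale.Agent.Lib.P154.Lat.Dom

/-!
The log-lattice of rays, natural number forms of the rays and the check of one splitting entry.
-/

noncomputable section

open Polynomial

namespace Vale.Agent.Lib.P154.Lat

/-- Integer exponents of a digit position. -/
def uC (z K o k : ℕ) : ℤ := (z : ℤ) * (((k % K : ℕ) : ℤ) - (o : ℤ))

def vC (z K o k : ℕ) : ℤ := (z : ℤ) * (((k / K : ℕ) : ℤ) - (o : ℤ))

/-- The ray at a digit position. -/
def rayF (ρ : ℝ) (z K o k : ℕ) : Fin 3 → ℝ :=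
  ![ρ ^ (-(uC z K o k) - vC z K o k), ρ ^ (uC z K o k), ρ ^ (vC z K o k)]

theorem rayF_nonneg {ρ : ℝ} (h : 0 < ρ) (z K o k : ℕ) : 0 ≤ rayF ρ z K o k := by
  intro i
  fin_cases i <;> simp only [rayF, Pi.zero_apply, Fin.zero_eta, Fin.mk_one, Fin.reduceFinMk,
    Matrix.cons_val_zero, Matrix.cons_val_one, Matrix.cons_val] <;> positivity

theorem mod_div_add {K k l : ℕ} (h : k % K + l % K < K) :
    (k + l) % K = k % K + l % K ∧ (k + l) / K = k / K + l / K := by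
  have hK : 0 < K := by omega
  constructor
  · rw [Nat.add_mod, Nat.mod_eq_of_lt h]
  · rw [Nat.add_div hK, if_neg (by omega), add_zero]

theorem rayF_add {ρ : ℝ} (hρ : 0 < ρ) {z K o o' k l : ℕ} (h : k % K + l % K < K) :
    rayF ρ z K (o + o') (k + l) = rayF ρ z K o k * rayF ρ z K o' l := by
  obtain ⟨h1, h2⟩ := mod_div_add h
  have hρ' : ρ ≠ 0 := hρ.ne'
  have eu : uC z K (o + o') (k + l) = uC z K o k + uC z K o' l := by
    unfold uC
    rw [h1]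
    push_cast
    ring
  have ev : vC z K (o + o') (k + l) = vC z K o k + vC z K o' l := by
    unfold vC
    rw [h2]
    push_cast
    ring
  funext i
  simp only [rayF, Pi.mul_apply, eu, ev]
  fin_cases i
  · simp only [Fin.zero_eta, Matrix.cons_val_zero]
    rw [← zpow_add₀ hρ']
    congr 1
    ring
  · simp only [Fin.mk_one, Matrix.cons_val_one, Matrix.cons_val_zero]
    rw [← zpow_add₀ hρ']
  · simp only [Fin.reduceFinMk, Matrix.cons_val]
    rw [← zpow_add₀ hρ']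

/-- The natural number forms of exponents. -/
def e2N (U z o i : ℕ) : ℕ := U + z * i - z * o

def e1N (U z o i j : ℕ) : ℕ := U + 2 * z * o - z * i - z * j

def pwN (r s U e : ℕ) : ℕ := r ^ e * s ^ (3 * U - e)

/-- The guard for natural number forms of a ray. -/
def Guard (U z K o k : ℕ) : Prop := z * o ≤ U ∧ z * (k % K) + z * (k / K) ≤ U + 2 * z * o

def guardB (U z K o k : ℕ) : Bool :=
  Nat.ble (z * o) U && Nat.ble (z * (k % K) + z * (k / K)) (U + 2 * z * o)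

theorem guard_of {U z K o k : ℕ} (h : guardB U z K o k = true) : Guard U z K o k := by
  simp only [guardB, Bool.and_eq_true, Nat.ble_eq] at h
  exact h

theorem pw_real {r s : ℕ} (hr : 0 < r) (hs : 0 < s) {U e : ℕ} (he : e ≤ 3 * U) {x : ℤ} (hx : x = (e : ℤ) - U) :
    ((r : ℝ) / s) ^ x * ((r : ℝ) ^ U * (s : ℝ) ^ (2 * U)) = (pwN r s U e : ℝ) := by
  have hr' : (r : ℝ) ≠ 0 := by positivity
  have hs' : (s : ℝ) ≠ 0 := by positivity
  have hρ : (r : ℝ) / s ≠ 0 := by positivity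
  subst hx
  unfold pwN
  rw [zpow_sub₀ hρ, zpow_natCast, zpow_natCast, div_pow, div_pow]
  push_cast
  obtain ⟨n, hn⟩ : ∃ n, 3 * U = e + n := ⟨3 * U - e, by omega⟩
  have e1 : 3 * U - e = n := by omega
  have e2 : (s : ℝ) ^ (3 * U) = (s : ℝ) ^ e * (s : ℝ) ^ n := by rw [hn, pow_add]
  have e3 : (s : ℝ) ^ (2 * U) * (s : ℝ) ^ U = (s : ℝ) ^ (3 * U) := by
    rw [← pow_add]; congr 1; ring
  rw [e1]
  have e4 : (s : ℝ) ^ (2 * U) * (s : ℝ) ^ U = (s : ℝ) ^ e * (s : ℝ) ^ n := by rw [e3, e2]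
  have p1 : (r : ℝ) ^ U ≠ 0 := pow_ne_zero _ hr'
  have p2 : (s : ℝ) ^ U ≠ 0 := pow_ne_zero _ hs'
  have p3 : (s : ℝ) ^ e ≠ 0 := pow_ne_zero _ hs'
  field_simp
  linear_combination e4

/-- The scale of natural number forms. -/
def scaleS (r s U : ℕ) : ℝ := (r : ℝ) ^ U * (s : ℝ) ^ (2 * U)

theorem scaleS_pos {r s U : ℕ} (hr : 0 < r) (hs : 0 < s) : 0 < scaleS r s U := by
  unfold scaleS; positivity

theorem ray_real0 {r s : ℕ} (hr : 0 < r) (hs : 0 < s) {U z K o k : ℕ} (h : Guard U z K o k) :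
    rayF ((r : ℝ) / s) z K o k 0 * scaleS r s U
      = (pwN r s U (e1N U z o (k % K) (k / K)) : ℝ) := by
  obtain ⟨h1, h2⟩ := h
  have a1 : z * (k % K) + z * (k / K) ≤ U + 2 * z * o := h2
  refine pw_real hr hs ?_ ?_
  · unfold e1N
    have : 2 * z * o = 2 * (z * o) := by ring
    omega
  · unfold e1N uC vC
    have e0 : 2 * z * o = 2 * (z * o) := by ring
    have : U + 2 * z * o - z * (k % K) - z * (k / K) = U + 2 * z * o - (z * (k % K) + z * (k / K)) := by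
      omega
    rw [this, Nat.cast_sub a1]
    push_cast
    ring

theorem ray_real1 {r s : ℕ} (hr : 0 < r) (hs : 0 < s) {U z K o k : ℕ} (h : Guard U z K o k) :
    rayF ((r : ℝ) / s) z K o k 1 * scaleS r s U = (pwN r s U (e2N U z o (k % K)) : ℝ) := by
  obtain ⟨h1, h2⟩ := h
  have a1 : z * o ≤ U + z * (k % K) := by omega
  refine pw_real hr hs ?_ ?_
  · unfold e2N
    have e0 : 2 * z * o = 2 * (z * o) := by ring
    have : z * (k % K) ≤ U + 2 * (z * o) := by omega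
    omega
  · unfold e2N uC
    rw [Nat.cast_sub a1]
    push_cast
    ring

theorem ray_real2 {r s : ℕ} (hr : 0 < r) (hs : 0 < s) {U z K o k : ℕ} (h : Guard U z K o k) :
    rayF ((r : ℝ) / s) z K o k 2 * scaleS r s U = (pwN r s U (e2N U z o (k / K)) : ℝ) := by
  obtain ⟨h1, h2⟩ := h
  have a1 : z * o ≤ U + z * (k / K) := by omega
  refine pw_real hr hs ?_ ?_
  · unfold e2N
    have e0 : 2 * z * o = 2 * (z * o) := by ring
    have : z * (k / K) ≤ U + 2 * (z * o) := by omega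
    omega
  · unfold e2N vC
    rw [Nat.cast_sub a1]
    push_cast
    ring

/-- Common parameters of the entry checks. -/
structure Num where
  r : ℕ
  s : ℕ
  U : ℕ
  p : ℕ
  q : ℕ
  E : ℕ

/-- The check of one splitting entry: source position `k`, targets and coefficients. -/
def okEntry (r s U p q E zS KS oS zT KT oT IT k t1 t2 t3 c1 c2 c3 : ℕ) : Bool :=
  let a0 := pwN r s U (e1N U zS oS (k % KS) (k / KS))
  let a1 := pwN r s U (e2N U zS oS (k % KS))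
  let a2 := pwN r s U (e2N U zS oS (k / KS))
  let x0 := pwN r s U (e1N U zT oT (t1 % KT) (t1 / KT))
  let x1 := pwN r s U (e2N U zT oT (t1 % KT))
  let x2 := pwN r s U (e2N U zT oT (t1 / KT))
  let y0 := pwN r s U (e1N U zT oT (t2 % KT) (t2 / KT))
  let y1 := pwN r s U (e2N U zT oT (t2 % KT))
  let y2 := pwN r s U (e2N U zT oT (t2 / KT))
  let w0 := pwN r s U (e1N U zT oT (t3 % KT) (t3 / KT))
  let w1 := pwN r s U (e2N U zT oT (t3 % KT))
  let w2 := pwN r s U (e2N U zT oT (t3 / KT))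
  let g := 2 ^ E
  let S := g * (q + p) * (a0 + a1 + a2)
  let g3 := g * (3 * p)
  let q3 := 3 * q
  guardB U zS KS oS k && guardB U zT KT oT t1 && guardB U zT KT oT t2 && guardB U zT KT oT t3 &&
  Nat.ble (t1 % KT) IT && Nat.ble (t2 % KT) IT && Nat.ble (t3 % KT) IT &&
  Nat.ble (q3 * (c1 * x0 + c2 * y0 + c3 * w0) + g3 * a0) S &&
  Nat.ble (q3 * (c1 * x1 + c2 * y1 + c3 * w1) + g3 * a1) S &&
  Nat.ble (q3 * (c1 * x2 + c2 * y2 + c3 * w2) + g3 * a2) S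

/-- Real form of a check. -/
theorem split_real {p q E : ℕ} (hq : 0 < q) {C c1 c2 c3 x1 x2 x3 a a0 a1 a2 : ℝ} (hC : 0 < C)
    (h : (3 * (q : ℝ)) * (c1 * (x1 * C) + c2 * (x2 * C) + c3 * (x3 * C)) + 2 ^ E * (3 * p) * (a * C)
      ≤ 2 ^ E * (q + p) * (a0 * C + a1 * C + a2 * C)) :
    c1 * x1 + c2 * x2 + c3 * x3 ≤
      2 ^ E * (-((p : ℝ) / q) * a + (1 - -((p : ℝ) / q)) / 3 * (a0 + a1 + a2)) := by
  have hq' : (0 : ℝ) < q := by exact_mod_cast hq
  have e : c1 * x1 + c2 * x2 + c3 * x3 -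
      2 ^ E * (-((p : ℝ) / q) * a + (1 - -((p : ℝ) / q)) / 3 * (a0 + a1 + a2))
      = ((3 * (q : ℝ)) * (c1 * (x1 * C) + c2 * (x2 * C) + c3 * (x3 * C)) + 2 ^ E * (3 * p) * (a * C)
        - 2 ^ E * (q + p) * (a0 * C + a1 * C + a2 * C)) / (3 * q * C) := by
    field_simp
    ring
  have h2 : ((3 * (q : ℝ)) * (c1 * (x1 * C) + c2 * (x2 * C) + c3 * (x3 * C)) + 2 ^ E * (3 * p) * (a * C)
      - 2 ^ E * (q + p) * (a0 * C + a1 * C + a2 * C)) / (3 * q * C) ≤ 0 :=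
    div_nonpos_of_nonpos_of_nonneg (by linarith) (by positivity)
  linarith

theorem okEntry_spec {r s U p q E zS KS oS zT KT oT IT k t1 t2 t3 c1 c2 c3 : ℕ}
    (hr : 0 < r) (hs : 0 < s) (hq : 0 < q)
    (h : okEntry r s U p q E zS KS oS zT KT oT IT k t1 t2 t3 c1 c2 c3 = true)
    {G : (Fin 3 → ℝ) → ℝ} (hG : InG G) :
    (2 : ℝ) ^ E * G (chanV (-((p : ℝ) / q)) (rayF ((r : ℝ) / s) zS KS oS k))
      ≤ c1 * G (rayF ((r : ℝ) / s) zT KT oT t1) + c2 * G (rayF ((r : ℝ) / s) zT KT oT t2)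
        + c3 * G (rayF ((r : ℝ) / s) zT KT oT t3) := by
  simp only [okEntry, Bool.and_eq_true, Nat.ble_eq] at h
  obtain ⟨⟨⟨⟨⟨⟨⟨⟨⟨g0, g1⟩, g2⟩, g3⟩, -⟩, -⟩, -⟩, m0⟩, m1⟩, m2⟩ := h
  have hρ : 0 < (r : ℝ) / s := by positivity
  have hC := scaleS_pos (U := U) hr hs
  have G0 := guard_of g0
  have G1 := guard_of g1
  have G2 := guard_of g2
  have G3 := guard_of g3
  have cast : ∀ {a b : ℕ}, a ≤ b → (a : ℝ) ≤ b := fun h => by exact_mod_cast h
  refine hG.split3 (by positivity) (Nat.cast_nonneg _) (Nat.cast_nonneg _) (Nat.cast_nonneg _)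
    (rayF_nonneg hρ _ _ _ _) (rayF_nonneg hρ _ _ _ _) (rayF_nonneg hρ _ _ _ _) ?_
  intro i
  have m0' := cast m0
  have m1' := cast m1
  have m2' := cast m2
  push_cast at m0' m1' m2'
  simp only [← ray_real0 hr hs G0, ← ray_real1 hr hs G0, ← ray_real2 hr hs G0,
    ← ray_real0 hr hs G1, ← ray_real1 hr hs G1, ← ray_real2 hr hs G1,
    ← ray_real0 hr hs G2, ← ray_real1 hr hs G2, ← ray_real2 hr hs G2,
    ← ray_real0 hr hs G3, ← ray_real1 hr hs G3, ← ray_real2 hr hs G3] at m0' m1' m2'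
  fin_cases i
  · exact split_real hq hC m0'
  · exact split_real hq hC m1'
  · exact split_real hq hC m2'

theorem okEntry_good {r s U p q E zS KS oS zT KT oT IT k t1 t2 t3 c1 c2 c3 : ℕ}
    (h : okEntry r s U p q E zS KS oS zT KT oT IT k t1 t2 t3 c1 c2 c3 = true) :
    t1 % KT ≤ IT ∧ t2 % KT ≤ IT ∧ t3 % KT ≤ IT := by
  simp only [okEntry, Bool.and_eq_true, Nat.ble_eq] at h
  obtain ⟨⟨⟨⟨⟨⟨⟨⟨⟨-, -⟩, -⟩, -⟩, a⟩, b⟩, c⟩, -⟩, -⟩, -⟩ := h
  exact ⟨a, b, c⟩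

/-- The check of a corner entry: the image of a vertex. -/
def okCorner (r s U p q E zT KT oT IT i t1 t2 t3 c1 c2 c3 : ℕ) : Bool :=
  let C := r ^ U * s ^ (2 * U)
  let x0 := pwN r s U (e1N U zT oT (t1 % KT) (t1 / KT))
  let x1 := pwN r s U (e2N U zT oT (t1 % KT))
  let x2 := pwN r s U (e2N U zT oT (t1 / KT))
  let y0 := pwN r s U (e1N U zT oT (t2 % KT) (t2 / KT))
  let y1 := pwN r s U (e2N U zT oT (t2 % KT))
  let y2 := pwN r s U (e2N U zT oT (t2 / KT))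
  let w0 := pwN r s U (e1N U zT oT (t3 % KT) (t3 / KT))
  let w1 := pwN r s U (e2N U zT oT (t3 % KT))
  let w2 := pwN r s U (e2N U zT oT (t3 / KT))
  let g := 2 ^ E
  let S := g * (q + p) * C
  let g3 := g * (3 * p) * C
  let q3 := 3 * q
  guardB U zT KT oT t1 && guardB U zT KT oT t2 && guardB U zT KT oT t3 &&
  Nat.ble (t1 % KT) IT && Nat.ble (t2 % KT) IT && Nat.ble (t3 % KT) IT &&
  Nat.ble (q3 * (c1 * x0 + c2 * y0 + c3 * w0) + cond (Nat.beq i 0) g3 0) S &&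
  Nat.ble (q3 * (c1 * x1 + c2 * y1 + c3 * w1) + cond (Nat.beq i 1) g3 0) S &&
  Nat.ble (q3 * (c1 * x2 + c2 * y2 + c3 * w2) + cond (Nat.beq i 2) g3 0) S

theorem corner_real {p q E : ℕ} (hq : 0 < q) {C c1 c2 c3 x1 x2 x3 : ℝ} {δ : ℝ} (hC : 0 < C)
    (h : (3 * (q : ℝ)) * (c1 * (x1 * C) + c2 * (x2 * C) + c3 * (x3 * C)) + 2 ^ E * (3 * p) * C * δ
      ≤ 2 ^ E * (q + p) * C) :
    c1 * x1 + c2 * x2 + c3 * x3 ≤
      2 ^ E * (-((p : ℝ) / q) * δ + (1 - -((p : ℝ) / q)) / 3) := by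
  have := split_real (p := p) (q := q) (E := E) hq (C := C) (c1 := c1) (c2 := c2) (c3 := c3) (x1 := x1)
    (x2 := x2) (x3 := x3) (a := δ) (a0 := 1) (a1 := 0) (a2 := 0) hC (by
      have e : (2 : ℝ) ^ E * (q + p) * (1 * C + 0 * C + 0 * C) = 2 ^ E * (q + p) * C := by ring
      rw [e]
      linarith)
  simpa using this

theorem okCorner_spec {r s U p q E zT KT oT IT i t1 t2 t3 c1 c2 c3 : ℕ}
    (hr : 0 < r) (hs : 0 < s) (hq : 0 < q) (i' : Fin 3) (hi : i'.val = i)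
    (h : okCorner r s U p q E zT KT oT IT i t1 t2 t3 c1 c2 c3 = true)
    {G : (Fin 3 → ℝ) → ℝ} (hG : InG G) :
    (2 : ℝ) ^ E * G (chanV (-((p : ℝ) / q)) (Pi.single i' 1))
      ≤ c1 * G (rayF ((r : ℝ) / s) zT KT oT t1) + c2 * G (rayF ((r : ℝ) / s) zT KT oT t2)
        + c3 * G (rayF ((r : ℝ) / s) zT KT oT t3) := by
  simp only [okCorner, Bool.and_eq_true, Nat.ble_eq] at h
  obtain ⟨⟨⟨⟨⟨⟨⟨⟨g1, g2⟩, g3⟩, -⟩, -⟩, -⟩, m0⟩, m1⟩, m2⟩ := h
  have hρ : 0 < (r : ℝ) / s := by positivity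
  have hC := scaleS_pos (U := U) hr hs
  have G1 := guard_of g1
  have G2 := guard_of g2
  have G3 := guard_of g3
  have cast : ∀ {a b : ℕ}, a ≤ b → (a : ℝ) ≤ b := fun h => by exact_mod_cast h
  refine hG.split3 (by positivity) (Nat.cast_nonneg _) (Nat.cast_nonneg _) (Nat.cast_nonneg _)
    (rayF_nonneg hρ _ _ _ _) (rayF_nonneg hρ _ _ _ _) (rayF_nonneg hρ _ _ _ _) ?_
  intro j
  have m0' := cast m0
  have m1' := cast m1
  have m2' := cast m2
  have cc : ∀ (n : ℕ) (j0 : Fin 3) (b : Bool), (b = Nat.beq i n) → (j0.val = n) →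
      ((cond b ((2 : ℕ) ^ E * (3 * p) * (r ^ U * s ^ (2 * U))) 0 : ℕ) : ℝ)
        = 2 ^ E * (3 * p) * scaleS r s U * (if j0 = i' then 1 else 0) := by
    intro n j0 b hb hj
    subst hb
    by_cases hh : i = n
    · have : j0 = i' := Fin.ext (by omega)
      subst hh
      simp [this, scaleS]
    · have : j0 ≠ i' := fun e => hh (by rw [← hi, ← e, hj])
      have hb : Nat.beq i n = false := by
        rw [← Bool.not_eq_true]
        intro h'
        exact hh (Nat.eq_of_beq_eq_true h')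
      rw [hb]
      simp [this]
  have eS : (((2 : ℕ) ^ E * (q + p) * (r ^ U * s ^ (2 * U)) : ℕ) : ℝ) = 2 ^ E * (q + p) * scaleS r s U := by
    unfold scaleS
    push_cast
    ring
  rw [Nat.cast_add, cc 0 0 _ rfl rfl, eS] at m0'
  rw [Nat.cast_add, cc 1 1 _ rfl rfl, eS] at m1'
  rw [Nat.cast_add, cc 2 2 _ rfl rfl, eS] at m2'
  push_cast at m0' m1' m2'
  simp only [← ray_real0 hr hs G1, ← ray_real1 hr hs G1, ← ray_real2 hr hs G1,
    ← ray_real0 hr hs G2, ← ray_real1 hr hs G2, ← ray_real2 hr hs G2,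
    ← ray_real0 hr hs G3, ← ray_real1 hr hs G3, ← ray_real2 hr hs G3] at m0' m1' m2'
  have e1 : chanV (-((p : ℝ) / q)) (Pi.single i' 1) j
      = -((p : ℝ) / q) * (if j = i' then 1 else 0) + (1 - -((p : ℝ) / q)) / 3 := by
    unfold chanV
    have : (Pi.single i' 1 : Fin 3 → ℝ) 0 + (Pi.single i' 1 : Fin 3 → ℝ) 1 + (Pi.single i' 1 : Fin 3 → ℝ) 2 = 1 := by
      fin_cases i' <;> simp
    rw [this, Pi.single_apply, mul_one]
  rw [e1]
  fin_cases j
  · exact corner_real hq hC m0'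
  · exact corner_real hq hC m1'
  · exact corner_real hq hC m2'

theorem okCorner_good {r s U p q E zT KT oT IT i t1 t2 t3 c1 c2 c3 : ℕ}
    (h : okCorner r s U p q E zT KT oT IT i t1 t2 t3 c1 c2 c3 = true) :
    t1 % KT ≤ IT ∧ t2 % KT ≤ IT ∧ t3 % KT ≤ IT := by
  simp only [okCorner, Bool.and_eq_true, Nat.ble_eq] at h
  obtain ⟨⟨⟨⟨⟨⟨⟨⟨-, -⟩, -⟩, a⟩, b⟩, c⟩, -⟩, -⟩, -⟩ := h
  exact ⟨a, b, c⟩

end Vale.Agent.Lib.P154.Lat
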