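import Vale.Agent.Lib.P154.Lat.Trie

/-!
One level of the dominating law iteration.
-/

noncomputable section

open Polynomial

namespace Vale.Agent.Lib.P154.Lat

/-- Iterated products with digit-wise rounding. -/
def chainT (W D w LT Q : ℕ) (m : ℕ) : ℕ :=
  Nat.rec (motive := fun _ => ℕ) (2 ^ D) (fun _ ih => floorClamp W D w LT (Q * ih)) m

/-- Digit of a product. -/
def dotQ (W L Q R : ℕ) : ℕ := ((Q * R) >>> (W * (L - 1))) % 2 ^ W

/-- Mass left over. -/
def massV (D F d dot : ℕ) : ℕ := (2 ^ ((D + F) * d) - dot ^ d) / 2 ^ ((D + F) * d - D)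

/-- All of a range. -/
def allB (n : ℕ) (f : ℕ → Bool) : Bool :=
  Nat.rec (motive := fun _ => Bool) true (fun m ih => f m && ih) n

theorem allB_spec {n : ℕ} {f : ℕ → Bool} (h : allB n f = true) : ∀ m, m < n → f m = true := by
  induction n with
  | zero => intro m hm; omega
  | succ n ih =>
    have h' : (f n && allB n f) = true := h
    simp only [Bool.and_eq_true] at h'
    intro m hm
    by_cases e : m = n
    · rw [e]; exact h'.1
    · exact ih h'.2 m (by omega)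

/-- Assembling a number from rows of digits. -/
def packRows (W K sh : ℕ) (rows : List ℕ) : ℕ :=
  List.foldr (fun r acc => (r <<< (W * sh)) + (acc <<< (W * K))) 0 rows

/-- Assembling sparse rows into a number. -/
def packS (W K : ℕ) (rows : List (ℕ × ℕ)) : ℕ :=
  List.foldr (fun r acc => (r.2 <<< (W * r.1)) + (acc <<< (W * K))) 0 rows

/-- The data of one phase of the iteration. -/
structure Cfg where
  W : ℕ
  D : ℕ
  E : ℕ
  w : ℕ
  F : ℕ
  wr : ℕ
  d : ℕ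
  r : ℕ
  s : ℕ
  U : ℕ
  p : ℕ
  q : ℕ
  z : ℕ
  K : ℕ
  o : ℕ
  I : ℕ
  J : ℕ
  z' : ℕ
  K' : ℕ
  o' : ℕ
  I' : ℕ
  J' : ℕ
  LT : ℕ
  trie : Trie
  c0 : Trie
  c1 : Trie
  c2 : Trie
  R0 : ℕ
  R1 : ℕ
  R2 : ℕ

namespace Cfg

variable (C : Cfg)

/-- Source entries check. -/
def okS : ℕ → ℕ → ℕ → ℕ → ℕ → ℕ → ℕ → Bool :=
  okEntry C.r C.s C.U C.p C.q C.E C.z C.K (C.d * C.o) C.z' C.K' C.o' C.I'

/-- Corner entries check. -/
def okC (i : ℕ) : ℕ → ℕ → ℕ → ℕ → ℕ → ℕ → ℕ → Bool :=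
  fun _ t1 t2 t3 c1 c2 c3 => okCorner C.r C.s C.U C.p C.q C.E C.z' C.K' C.o' C.I' i t1 t2 t3 c1 c2 c3

/-- Rounded image under the table. -/
def toQ (T v0 v1 v2 : ℕ) : ℕ :=
  floorClamp C.W C.E C.w (C.K' * C.J')
    (go C.W C.trie T + go C.W C.c0 v0 + go C.W C.c1 v1 + go C.W C.c2 v2)

/-- The first law. -/
def initQ : ℕ := C.toQ 0 (2 ^ C.D) (2 ^ C.D) (2 ^ C.D)

/-- The `d`-th power. -/
def powT (Q : ℕ) : ℕ := chainT C.W C.D C.w C.LT Q C.d

/-- One step of the iteration. -/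
def stepQ (Q : ℕ) : ℕ :=
  let L := C.K * C.J
  let d0 := dotQ C.W L Q C.R0
  let d1 := dotQ C.W L Q C.R1
  let d2 := dotQ C.W L Q C.R2
  let X := 2 ^ (C.D + C.F)
  cond (Nat.ble d0 X && Nat.ble d1 X && Nat.ble d2 X)
    (C.toQ (C.powT Q) (massV C.D C.F C.d d0) (massV C.D C.F C.d d1) (massV C.D C.F C.d d2)) 0

/-- Natural number form of a ray coordinate at a source digit of a factor. -/
def massEntry (R k : ℕ) (y : ℕ) : Bool :=
  Nat.ble (2 ^ C.F * y) (dig (2 ^ C.W) R (C.K * C.J - 1 - k) * (C.r ^ C.U * C.s ^ (2 * C.U)))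

/-- The check of the masses. -/
def massOK : Bool :=
  allB C.J fun j => allB (C.I + 1) fun i =>
    let k := i + C.K * j
    guardB C.U C.z C.K C.o k &&
    C.massEntry C.R0 k (pwN C.r C.s C.U (e1N C.U C.z C.o (k % C.K) (k / C.K))) &&
    C.massEntry C.R1 k (pwN C.r C.s C.U (e2N C.U C.z C.o (k % C.K))) &&
    C.massEntry C.R2 k (pwN C.r C.s C.U (e2N C.U C.z C.o (k / C.K)))

/-- Numeric side conditions. -/
def arithOK : Bool :=
  Nat.ble 1 C.r && Nat.ble 1 C.s && Nat.ble 1 C.q && Nat.ble (2 * C.p) C.q && Nat.ble 1 C.W &&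
  Nat.ble (C.D + C.w) C.W && Nat.ble (C.E + C.w) C.W && Nat.ble (C.D + 1) C.w && Nat.ble 1 C.d &&
  Nat.ble (C.d * C.I + 1) C.K && Nat.ble 1 (C.K * C.J) && Nat.ble (C.wr) C.W && Nat.ble (C.I' + 1) C.K' &&
  Nat.ble (C.K * C.J * (2 ^ C.w * 2 ^ C.w) + 1) (2 ^ C.W) &&
  Nat.ble (C.K * C.J * (2 ^ C.w * 2 ^ C.wr) + 1) (2 ^ C.W) &&
  Nat.ble (2 ^ C.w * total C.trie + 2 ^ C.D * (total C.c0 + total C.c1 + total C.c2) + 1) (2 ^ C.W)

/-- Masks preserve the mass vectors. -/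
def digOK : Bool :=
  Nat.beq (floorClamp C.W 0 C.wr (C.K * C.J) C.R0) C.R0 &&
  Nat.beq (floorClamp C.W 0 C.wr (C.K * C.J) C.R1) C.R1 &&
  Nat.beq (floorClamp C.W 0 C.wr (C.K * C.J) C.R2) C.R2

/-- Checks of the table. -/
def tableOK : Bool :=
  checkT C.okS C.trie 0 0 && checkT (C.okC 0) C.c0 0 0 && checkT (C.okC 1) C.c1 0 0 &&
  checkT (C.okC 2) C.c2 0 0

/-- The semantic consequence of all the checks. -/
structure Valid : Prop where
  arith : C.arithOK = true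
  dig : C.digOK = true
  table : C.tableOK = true
  mass : C.massOK = true

/-- The ray of the source law. -/
def rho : ℝ := (C.r : ℝ) / C.s

/-- The law at the source lattice. -/
def fQ : ℕ → Fin 3 → ℝ := rayF C.rho C.z C.K C.o

def fT (m : ℕ) : ℕ → Fin 3 → ℝ := rayF C.rho C.z C.K (m * C.o)

def fQ' : ℕ → Fin 3 → ℝ := rayF C.rho C.z' C.K' C.o'

def cc : ℝ := ((2 : ℝ) ^ C.D)⁻¹

def mu : ℝ := (C.p : ℝ) / C.q

end Cfg

/-- Structure of a law number. -/
structure QInv (W w K I L Q : ℕ) : Prop where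
  lt : ∀ k, dig (2 ^ W) Q k < 2 ^ w
  high : ∀ k, L ≤ k → dig (2 ^ W) Q k = 0
  good : ∀ k, dig (2 ^ W) Q k ≠ 0 → k % K ≤ I

variable {ι : Type*} [Fintype ι]

theorem two_le_pow {W : ℕ} (hW : 1 ≤ W) : 2 ≤ 2 ^ W := by
  calc 2 = 2 ^ 1 := by norm_num
    _ ≤ 2 ^ W := Nat.pow_le_pow_right (by norm_num) hW

theorem coeff_mul_le (R S : ℕ[X]) (M : ℕ) (h : ∀ b, S.coeff b ≤ M) (n : ℕ) :
    (R * S).coeff n ≤ R.eval 1 * M := by
  induction R using Polynomial.induction_on' with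
  | add p q hp hq =>
    rw [add_mul, coeff_add, eval_add, add_mul]
    exact add_le_add hp hq
  | monomial k a =>
    rw [eval_monomial, one_pow, mul_one, ← C_mul_X_pow_eq_monomial, mul_assoc, coeff_C_mul,
      coeff_X_pow_mul']
    split_ifs
    · exact Nat.mul_le_mul_left _ (h _)
    · simp

theorem eval_one_le_of_digits {B : ℕ} (hB : 2 ≤ B) {Q L M : ℕ} (hL : 0 < L) (h1 : ∀ k, dig B Q k ≤ M)
    (h2 : ∀ k, L ≤ k → dig B Q k = 0) : (pol B Q).eval 1 ≤ L * M := by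
  have hd : (pol B Q).natDegree < L := by
    have : (pol B Q).natDegree ≤ L - 1 := by
      rw [Polynomial.natDegree_le_iff_coeff_eq_zero]
      intro N hN
      rw [pol_coeff hB]
      exact h2 N (by omega)
    omega
  rw [Polynomial.eval_eq_sum_range' hd]
  calc ∑ i ∈ Finset.range L, (pol B Q).coeff i * 1 ^ i ≤ ∑ _i ∈ Finset.range L, M := by
        refine Finset.sum_le_sum fun i _ => ?_
        rw [one_pow, mul_one, pol_coeff hB]
        exact h1 i
    _ = L * M := by simp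

theorem vec3_eq (x : Fin 3 → ℝ) : ![x 0, x 1, x 2] = x := by
  funext i
  fin_cases i <;> rfl

theorem sum_powS_G (G : (Fin 3 → ℝ) → ℝ) (m : ℕ) (M : ι → Fin 3 → ℝ) :
    ∑ τ, G (powS (m + 1) M τ) = ∑ p, G (prodS M (powS m M) p) := by
  have := sum_powS_succ (fun a b c => G ![a, b, c]) m M
  simpa only [vec3_eq] using this

theorem powS_nonneg {M : ι → Fin 3 → ℝ} (hM : ∀ t, 0 ≤ M t) (m : ℕ) (τ : Fin m → ι) : 0 ≤ powS m M τ := by
  intro i
  exact Finset.prod_nonneg fun c _ => hM _ i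

theorem pol_zero' {B : ℕ} (hB : 2 ≤ B) : pol B 0 = 0 := by
  ext k
  rw [pol_coeff hB]
  simp [dig]

theorem coeff_ne_zero_of_mul {R S : ℕ[X]} {n : ℕ} (h : (R * S).coeff n ≠ 0) :
    ∃ a b, a + b = n ∧ R.coeff a ≠ 0 ∧ S.coeff b ≠ 0 := by
  rw [Polynomial.coeff_mul] at h
  obtain ⟨⟨a, b⟩, hab, hne⟩ := Finset.exists_ne_zero_of_sum_ne_zero h
  refine ⟨a, b, Finset.HasAntidiagonal.mem_antidiagonal.mp hab, ?_, ?_⟩
  · exact fun e => hne (by simp [e])
  · exact fun e => hne (by simp [e])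

/-- The chain of products. -/
theorem chain_spec {W D w LT K I L z o d : ℕ} {ρ : ℝ} (hρ : 0 < ρ) (hW : 1 ≤ W) (hD : D + w ≤ W)
    (hDw : D < w) (hI : d * I < K) (hL : 0 < L) (hmul : L * (2 ^ w * 2 ^ w) < 2 ^ W)
    {M : ι → Fin 3 → ℝ} (hM : ∀ t, 0 ≤ M t) {Q : ℕ} (hQ : QInv W w K I L Q)
    (hDom : Dom M (rayF ρ z K o) ((2 ^ D)⁻¹) (pol (2 ^ W) Q))
    {τ : Fin 3 → ℝ} (hτ0 : 0 ≤ τ)
    (hτ : ∀ i, ((2 : ℝ) ^ D)⁻¹ * Phi (fun k => rayF ρ z K o k i) (pol (2 ^ W) Q) ≤ τ i) :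
    ∀ m, m ≤ d → Dom (powS m M) (rayF ρ z K (m * o)) ((2 ^ D)⁻¹) (pol (2 ^ W) (chainT W D w LT Q m))
      ∧ (∀ k, dig (2 ^ W) (chainT W D w LT Q m) k < 2 ^ w)
      ∧ (∀ k, dig (2 ^ W) (chainT W D w LT Q m) k ≠ 0 → k % K ≤ m * I)
      ∧ ∀ i, ((2 : ℝ) ^ D)⁻¹ * Phi (fun k => rayF ρ z K (m * o) k i) (pol (2 ^ W) (chainT W D w LT Q m))
        ≤ τ i ^ m := by
  have hB := two_le_pow hW
  have hc : (0 : ℝ) < ((2 : ℝ) ^ D)⁻¹ := by positivity
  have hc2 : ((2 : ℝ) ^ D)⁻¹ * 2 ^ D = 1 := inv_mul_cancel₀ (by positivity)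
  intro m
  induction m with
  | zero =>
    intro _
    have e0 : chainT W D w LT Q 0 = 2 ^ D := rfl
    have hlt : 2 ^ D < 2 ^ W := Nat.pow_lt_pow_right (by norm_num) (by omega)
    have hp := pol_small hB hlt
    rw [e0, hp]
    have hray : ∀ i, rayF ρ z K (0 * o) 0 i = 1 := by
      intro i
      fin_cases i <;> simp [rayF, uC, vC]
    refine ⟨?_, ?_, ?_, ?_⟩
    · intro G _
      rw [Phi_monomial, Fintype.sum_unique]
      have e1 : powS 0 M default = rayF ρ z K (0 * o) 0 := by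
        funext i
        rw [hray]
        simp [powS]
      rw [e1]
      push_cast
      rw [← mul_assoc, hc2, one_mul]
    · intro k
      unfold dig
      have : 2 ^ D / (2 ^ W) ^ k % 2 ^ W ≤ 2 ^ D := (Nat.mod_le _ _).trans (Nat.div_le_self _ _)
      exact this.trans_lt (Nat.pow_lt_pow_right (by norm_num) hDw)
    · intro k hk
      rw [← pol_coeff hB, hp, coeff_monomial] at hk
      have : k = 0 := by
        by_contra hne
        exact hk (if_neg (Ne.symm hne))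
      subst this
      simp
    · intro i
      rw [Phi_monomial, hray]
      push_cast
      simp only [mul_one, pow_zero]
      exact hc2.le
  | succ m ih =>
    intro hm
    obtain ⟨iD, ilt, ig, imass⟩ := ih (by omega)
    set T := chainT W D w LT Q m with hT
    have e0 : chainT W D w LT Q (m + 1) = floorClamp W D w LT (Q * T) := rfl
    rw [e0]
    have hltq : ∀ k, dig (2 ^ W) Q k ≤ 2 ^ w := fun k => (hQ.lt k).le
    have hev := eval_one_le_of_digits hB hL hltq hQ.high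
    have hcoef : ∀ n, (pol (2 ^ W) Q * pol (2 ^ W) T).coeff n < 2 ^ W := by
      intro n
      refine lt_of_le_of_lt (coeff_mul_le _ _ (2 ^ w) (fun b => ?_) n) ?_
      · rw [pol_coeff hB]
        exact (ilt b).le
      · calc _ ≤ L * 2 ^ w * 2 ^ w := Nat.mul_le_mul_right _ hev
          _ = L * (2 ^ w * 2 ^ w) := by ring
          _ < 2 ^ W := hmul
    have hpm := pol_mul hB Q T hcoef
    have hfl : ∀ k, (pol (2 ^ W) (floorClamp W D w LT (Q * T))).coeff k * 2 ^ D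
        ≤ (pol (2 ^ W) Q * pol (2 ^ W) T).coeff k := by
      intro k
      rw [pol_coeff hB, ← hpm, pol_coeff hB]
      exact dig_floorClamp_le hW hD _ _
    have hfl2 : ∀ k, (C (2 ^ D) * pol (2 ^ W) (floorClamp W D w LT (Q * T))).coeff k
        ≤ (pol (2 ^ W) Q * pol (2 ^ W) T).coeff k := by
      intro k
      rw [coeff_C_mul, mul_comm]
      exact hfl k
    have hgoodmul : ∀ a b, (pol (2 ^ W) Q).coeff a ≠ 0 → (pol (2 ^ W) T).coeff b ≠ 0 →
        a % K + b % K ≤ (m + 1) * I := by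
      intro a b ha hb
      rw [pol_coeff hB] at ha hb
      have h1 := hQ.good a ha
      have h2 := ig b hb
      have e : (m + 1) * I = I + m * I := by ring
      omega
    have hKlt : (m + 1) * I < K := lt_of_le_of_lt (Nat.mul_le_mul_right _ hm) hI
    have hrayadd : ∀ a b, (pol (2 ^ W) Q).coeff a ≠ 0 → (pol (2 ^ W) T).coeff b ≠ 0 →
        rayF ρ z K ((m + 1) * o) (a + b) = rayF ρ z K o a * rayF ρ z K (m * o) b := by
      intro a b ha hb
      have e : (m + 1) * o = o + m * o := by ring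
      rw [e]
      exact rayF_add hρ (lt_of_le_of_lt (hgoodmul a b ha hb) hKlt)
    refine ⟨?_, ?_, ?_, ?_⟩
    · intro G hG
      rw [sum_powS_G]
      have h1 := Dom.prod (fun t => hM t) (fun k => rayF_nonneg hρ z K (m * o) k) hc.le hDom iD hrayadd G hG
      have h2 : Phi (fun k => G (rayF ρ z K ((m + 1) * o) k)) (pol (2 ^ W) Q * pol (2 ^ W) T)
          ≤ Phi (fun k => G (rayF ρ z K ((m + 1) * o) k))
            (C (2 ^ D) * pol (2 ^ W) (floorClamp W D w LT (Q * T))) :=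
        Phi_antitone (fun p => hG.le_zero (rayF_nonneg hρ _ _ _ _)) hfl2
      rw [Phi_C_mul] at h2
      push_cast at h2
      calc _ ≤ _ := h1
        _ ≤ ((2 : ℝ) ^ D)⁻¹ * ((2 : ℝ) ^ D)⁻¹ * (2 ^ D * Phi (fun k => G (rayF ρ z K ((m + 1) * o) k))
              (pol (2 ^ W) (floorClamp W D w LT (Q * T)))) :=
            mul_le_mul_of_nonneg_left h2 (by positivity)
        _ = _ := by
          rw [mul_assoc, ← mul_assoc _ (2 ^ D), hc2, one_mul]
    · intro k
      exact dig_floorClamp_lt hW hD _ _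
    · intro k hk
      have h1 := hfl k
      rw [pol_coeff hB] at h1
      have h2 : (pol (2 ^ W) Q * pol (2 ^ W) T).coeff k ≠ 0 := by
        have : 0 < dig (2 ^ W) (floorClamp W D w LT (Q * T)) k * 2 ^ D :=
          Nat.mul_pos (Nat.pos_of_ne_zero hk) (by positivity)
        omega
      obtain ⟨a, b, hab, ha, hb⟩ := coeff_ne_zero_of_mul h2
      have h3 := hgoodmul a b ha hb
      have h4 := (mod_div_add (lt_of_le_of_lt h3 hKlt)).1
      rw [← hab, h4]
      exact h3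
    · intro i
      have h1 : Phi (fun k => rayF ρ z K ((m + 1) * o) k i) (C (2 ^ D) * pol (2 ^ W) (floorClamp W D w LT (Q * T)))
          ≤ Phi (fun k => rayF ρ z K ((m + 1) * o) k i) (pol (2 ^ W) Q * pol (2 ^ W) T) :=
        Phi_monotone (fun p => rayF_nonneg hρ _ _ _ _ i) hfl2
      rw [Phi_C_mul] at h1
      push_cast at h1
      have h2 : Phi (fun k => rayF ρ z K ((m + 1) * o) k i) (pol (2 ^ W) Q * pol (2 ^ W) T)
          = Phi (fun k => rayF ρ z K o k i) (pol (2 ^ W) Q)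
            * Phi (fun k => rayF ρ z K (m * o) k i) (pol (2 ^ W) T) := by
        rw [Phi_mul]
        set A := Phi (fun k => rayF ρ z K (m * o) k i) (pol (2 ^ W) T) with hA
        have e1 : Phi (fun k => rayF ρ z K o k i) (pol (2 ^ W) Q) * A
            = Phi (fun k => A * rayF ρ z K o k i) (pol (2 ^ W) Q) := by
          rw [Phi_smul_fun, mul_comm]
        rw [e1]
        refine Phi_congr fun a ha => ?_
        rw [hA, mul_comm (Phi _ _), ← Phi_smul_fun]
        refine Phi_congr fun b hb => ?_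
        rw [hrayadd a b ha hb]
        simp only [Pi.mul_apply]
      rw [h2] at h1
      have h3 := imass i
      have h4 := hτ i
      have n1 : 0 ≤ ((2 : ℝ) ^ D)⁻¹ * Phi (fun k => rayF ρ z K o k i) (pol (2 ^ W) Q) :=
        mul_nonneg hc.le (Phi_nonneg fun p => rayF_nonneg hρ _ _ _ _ i)
      have n2 : 0 ≤ ((2 : ℝ) ^ D)⁻¹ * Phi (fun k => rayF ρ z K (m * o) k i) (pol (2 ^ W) T) :=
        mul_nonneg hc.le (Phi_nonneg fun p => rayF_nonneg hρ _ _ _ _ i)
      have h5 := mul_le_mul h4 h3 n2 (hτ0 i)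
      calc _ = ((2 : ℝ) ^ D)⁻¹ * ((2 : ℝ) ^ D)⁻¹ * (2 ^ D * Phi (fun k => rayF ρ z K ((m + 1) * o) k i)
              (pol (2 ^ W) (floorClamp W D w LT (Q * T)))) := by
            rw [mul_assoc _ _ (_ * _), ← mul_assoc ((2 ^ D)⁻¹) (2 ^ D), hc2, one_mul]
        _ ≤ ((2 : ℝ) ^ D)⁻¹ * ((2 : ℝ) ^ D)⁻¹ * (Phi (fun k => rayF ρ z K o k i) (pol (2 ^ W) Q)
            * Phi (fun k => rayF ρ z K (m * o) k i) (pol (2 ^ W) T)) :=
            mul_le_mul_of_nonneg_left h1 (by positivity)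
        _ = (((2 : ℝ) ^ D)⁻¹ * Phi (fun k => rayF ρ z K o k i) (pol (2 ^ W) Q))
            * (((2 : ℝ) ^ D)⁻¹ * Phi (fun k => rayF ρ z K (m * o) k i) (pol (2 ^ W) T)) := by ring
        _ ≤ τ i * τ i ^ m := h5
        _ = τ i ^ (m + 1) := by rw [pow_succ']

end Vale.Agent.Lib.P154.Lat
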