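import Vale.Agent.Lib.P154.Lat.Step

/-!
One level of the dominating law iteration: the channel step and the masses.
-/

noncomputable section

open Polynomial

namespace Vale.Agent.Lib.P154.Lat

namespace Cfg

variable {C : Cfg} {ι : Type*} [Fintype ι]

/-- Side conditions in readable form. -/
structure Facts (C : Cfg) : Prop where
  hr : 0 < C.r
  hs : 0 < C.s
  hq : 0 < C.q
  hp : 2 * C.p ≤ C.q
  hW : 1 ≤ C.W
  hD : C.D + C.w ≤ C.W
  hE : C.E + C.w ≤ C.W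
  hDw : C.D < C.w
  hd : 1 ≤ C.d
  hI : C.d * C.I < C.K
  hL : 0 < C.K * C.J
  hwr : C.wr ≤ C.W
  hI' : C.I' < C.K'
  hmul : C.K * C.J * (2 ^ C.w * 2 ^ C.w) < 2 ^ C.W
  hdot : C.K * C.J * (2 ^ C.w * 2 ^ C.wr) < 2 ^ C.W
  htot : 2 ^ C.w * total C.trie + 2 ^ C.D * (total C.c0 + total C.c1 + total C.c2) < 2 ^ C.W

theorem Valid.facts (h : C.Valid) : Facts C := by
  have a := h.arith
  simp only [arithOK, Bool.and_eq_true, Nat.ble_eq] at a
  obtain ⟨⟨⟨⟨⟨⟨⟨⟨⟨⟨⟨⟨⟨⟨⟨h1, h2⟩, h3⟩, h4⟩, h5⟩, h6⟩, h7⟩, h8⟩, h9⟩, h10⟩, h11⟩, h12⟩, h13⟩, h14⟩, h15⟩, h16⟩ := a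
  exact ⟨h1, h2, h3, h4, h5, h6, h7, h8, h9, h10, h11, h12, h13, h14, h15, h16⟩

theorem Facts.mu_nonneg (_ : Facts C) : 0 ≤ C.mu := by
  unfold mu; positivity

theorem Facts.mu_le (h : Facts C) : C.mu ≤ 1 / 2 := by
  unfold mu
  have hq : (0 : ℝ) < C.q := by exact_mod_cast h.hq
  rw [div_le_iff₀ hq]
  have : (2 : ℝ) * C.p ≤ C.q := by exact_mod_cast h.hp
  linarith

theorem Facts.rho_pos (h : Facts C) : 0 < C.rho := by
  unfold rho
  have h1 : (0 : ℝ) < C.r := by exact_mod_cast h.hr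
  have h2 : (0 : ℝ) < C.s := by exact_mod_cast h.hs
  positivity

theorem Facts.cc_pos (_ : Facts C) : 0 < C.cc := by
  unfold cc; positivity

/-- The source table. -/
theorem Valid.trie_le (h : C.Valid) {G : (Fin 3 → ℝ) → ℝ} (hG : InG G) (T : ℕ) :
    (2 : ℝ) ^ C.E * Phi (fun k => G (chanV (-C.mu) (C.fT C.d k))) (pol (2 ^ C.W) T)
      ≤ Phi (fun p => G (C.fQ' p)) (sem C.W C.trie T) := by
  have F := h.facts
  have t := h.table
  simp only [tableOK, Bool.and_eq_true] at t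
  have hn : ∀ k, (0 : Fin 3 → ℝ) ≤ chanV (-C.mu) (C.fT C.d k) := fun k =>
    chanV_nonneg (by linarith [F.mu_le]) (by linarith [F.mu_nonneg]) (rayF_nonneg F.rho_pos _ _ _ _)
  have := trie_main (W := C.W) F.hW (F := fun k => G (chanV (-C.mu) (C.fT C.d k)))
    (Ψ := fun p => G (C.fQ' p)) (fun k => hG.le_zero (hn k)) C.E (ok := C.okS)
    (fun k t1 t2 t3 c1 c2 c3 hok => okEntry_spec F.hr F.hs F.hq hok hG) C.trie T 0 0 t.1.1.1
  simpa only [zero_add] using this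

theorem sem_good (h : C.Valid) (T p : ℕ) (hp : (sem C.W C.trie T).coeff p ≠ 0) : p % C.K' ≤ C.I' := by
  have t := h.table
  simp only [tableOK, Bool.and_eq_true] at t
  have := sem_support (Good := fun p => p % C.K' ≤ C.I') (ok := C.okS)
    (fun k t1 t2 t3 c1 c2 c3 hok => okEntry_good hok) C.trie T 0 0 t.1.1.1 p hp
  simpa only [zero_add] using this

/-- Corner tables. -/
theorem corner_le {i : Fin 3} {c : Trie} (F : Facts C) (hc : checkT (C.okC i.val) c 0 0 = true)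
    {G : (Fin 3 → ℝ) → ℝ} (hG : InG G) {v : ℕ} (hv : v < 2 ^ C.W) :
    (2 : ℝ) ^ C.E * (v * G (chanV (-C.mu) (Pi.single i 1)))
      ≤ Phi (fun p => G (C.fQ' p)) (sem C.W c v) := by
  have hn : (0 : Fin 3 → ℝ) ≤ chanV (-C.mu) (Pi.single i 1) :=
    chanV_nonneg (by linarith [F.mu_le]) (by linarith [F.mu_nonneg]) (single_nonneg' i)
  have := trie_main (W := C.W) F.hW (F := fun _ => G (chanV (-C.mu) (Pi.single i 1)))
    (Ψ := fun p => G (C.fQ' p)) (fun _ => hG.le_zero hn) C.E (ok := C.okC i.val)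
    (fun k t1 t2 t3 c1 c2 c3 hok => okCorner_spec F.hr F.hs F.hq i rfl hok hG) c v 0 0 hc
  rw [pol_small (two_le_pow F.hW) hv, Phi_monomial] at this
  simpa only [zero_add] using this

theorem corner_good {i : ℕ} {c : Trie} (hc : checkT (C.okC i) c 0 0 = true) (v p : ℕ)
    (hp : (sem C.W c v).coeff p ≠ 0) : p % C.K' ≤ C.I' := by
  have := sem_support (Good := fun p => p % C.K' ≤ C.I') (ok := C.okC i)
    (fun k t1 t2 t3 c1 c2 c3 hok => okCorner_good hok) c v 0 0 hc p hp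
  simpa only [zero_add] using this

theorem dig_le_of_le {B : ℕ} (hB : 0 < B) {x M : ℕ} (h : x ≤ M) (k : ℕ) : dig B x k ≤ M := by
  unfold dig
  calc x / B ^ k % B ≤ x / B ^ k := Nat.mod_le _ _
    _ ≤ x := Nat.div_le_self _ _
    _ ≤ M := h

/-- The channel step. -/
theorem toQ_dom (h : C.Valid) {l : ι → Fin 3 → ℝ} (hl : WSig l) {T v0 v1 v2 : ℕ}
    (hT : ∀ k, dig (2 ^ C.W) T k < 2 ^ C.w)
    (hDom : Dom l (C.fT C.d) C.cc (pol (2 ^ C.W) T))
    (hv0 : v0 ≤ 2 ^ C.D) (hv1 : v1 ≤ 2 ^ C.D) (hv2 : v2 ≤ 2 ^ C.D)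
    (hm0 : C.cc * v0 ≤ 1 - C.cc * Phi (fun k => C.fT C.d k 0) (pol (2 ^ C.W) T))
    (hm1 : C.cc * v1 ≤ 1 - C.cc * Phi (fun k => C.fT C.d k 1) (pol (2 ^ C.W) T))
    (hm2 : C.cc * v2 ≤ 1 - C.cc * Phi (fun k => C.fT C.d k 2) (pol (2 ^ C.W) T)) :
    Dom (chan (-C.mu) l) C.fQ' C.cc (pol (2 ^ C.W) (C.toQ T v0 v1 v2))
      ∧ QInv C.W C.w C.K' C.I' (C.K' * C.J') (C.toQ T v0 v1 v2) := by
  have F := h.facts
  have hB := two_le_pow F.hW
  have t := h.table
  simp only [tableOK, Bool.and_eq_true] at t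
  obtain ⟨⟨⟨t0, t1⟩, t2⟩, t3⟩ := t
  set S := sem C.W C.trie T + sem C.W C.c0 v0 + sem C.W C.c1 v1 + sem C.W C.c2 v2 with hS
  have hY : go C.W C.trie T + go C.W C.c0 v0 + go C.W C.c1 v1 + go C.W C.c2 v2 = S.eval (2 ^ C.W) := by
    simp only [hS, eval_add, sem_eval]
  have hdD : C.D < C.W := by have := F.hD; have := F.hDw; omega
  have hvlt : ∀ {v : ℕ}, v ≤ 2 ^ C.D → v < 2 ^ C.W := fun hv =>
    lt_of_le_of_lt hv (Nat.pow_lt_pow_right (by norm_num) hdD)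
  have hcoef : ∀ n, S.coeff n < 2 ^ C.W := by
    intro n
    refine lt_of_le_of_lt (coeff_le_eval_one S n) (lt_of_le_of_lt ?_ F.htot)
    simp only [hS, eval_add]
    have b0 := sem_eval_one F.hW C.trie T (2 ^ C.w) (fun k => (hT k).le)
    have b1 := sem_eval_one F.hW C.c0 v0 (2 ^ C.D) (dig_le_of_le (by positivity) hv0)
    have b2 := sem_eval_one F.hW C.c1 v1 (2 ^ C.D) (dig_le_of_le (by positivity) hv1)
    have b3 := sem_eval_one F.hW C.c2 v2 (2 ^ C.D) (dig_le_of_le (by positivity) hv2)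
    rw [mul_add, mul_add]
    omega
  have hpY : pol (2 ^ C.W) (S.eval (2 ^ C.W)) = S := pol_of_eval hB S hcoef
  have eQ : C.toQ T v0 v1 v2 = floorClamp C.W C.E C.w (C.K' * C.J') (S.eval (2 ^ C.W)) := by
    unfold toQ
    rw [hY]
  rw [eQ]
  have hfl : ∀ k, (pol (2 ^ C.W) (floorClamp C.W C.E C.w (C.K' * C.J') (S.eval (2 ^ C.W)))).coeff k * 2 ^ C.E
      ≤ S.coeff k := by
    intro k
    conv_rhs => rw [← hpY]
    rw [pol_coeff hB, pol_coeff hB]
    exact dig_floorClamp_le F.hW F.hE _ _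
  constructor
  · intro G hG
    have hl0 : -(1 / 2) ≤ -C.mu := by linarith [F.mu_le]
    have hl1 : -C.mu ≤ 1 := by linarith [F.mu_nonneg]
    have e := Dom.chan_le hl hl0 hl1 hDom (v := ![C.cc * v0, C.cc * v1, C.cc * v2]) (fun i => by
      fin_cases i
      · exact hm0
      · exact hm1
      · exact hm2) hG
    simp only [Matrix.cons_val_zero, Matrix.cons_val_one, Matrix.cons_val] at e
    have a0 := h.trie_le hG T
    have a1 := corner_le (i := 0) F t1 hG (hvlt hv0)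
    have a2 := corner_le (i := 1) F t2 hG (hvlt hv1)
    have a3 := corner_le (i := 2) F t3 hG (hvlt hv2)
    have hΨ : ∀ p, G (C.fQ' p) ≤ 0 := fun p => hG.le_zero (rayF_nonneg F.rho_pos _ _ _ _)
    have hanti : Phi (fun p => G (C.fQ' p)) S
        ≤ Phi (fun p => G (C.fQ' p)) (Polynomial.C (2 ^ C.E) * pol (2 ^ C.W) (floorClamp C.W C.E C.w (C.K' * C.J') (S.eval (2 ^ C.W)))) := by
      refine Phi_antitone hΨ fun n => ?_
      rw [coeff_C_mul, mul_comm]
      exact hfl n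
    rw [Phi_C_mul] at hanti
    push_cast at hanti
    rw [hS, Phi_add, Phi_add, Phi_add] at hanti
    have hc := F.cc_pos
    set PP := Phi (fun p => G (C.fQ' p)) (pol (2 ^ C.W) (floorClamp C.W C.E C.w (C.K' * C.J') (S.eval (2 ^ C.W)))) with hPP
    have hE : (0 : ℝ) < 2 ^ C.E := by positivity
    refine (mul_le_mul_iff_right₀ hE).mp ?_
    calc (2 : ℝ) ^ C.E * ∑ t, G (chan (-C.mu) l t)
        ≤ 2 ^ C.E * (C.cc * Phi (fun k => G (chanV (-C.mu) (C.fT C.d k))) (pol (2 ^ C.W) T)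
          + (C.cc * v0 * G (chanV (-C.mu) (Pi.single 0 1)) + C.cc * v1 * G (chanV (-C.mu) (Pi.single 1 1))
            + C.cc * v2 * G (chanV (-C.mu) (Pi.single 2 1)))) := mul_le_mul_of_nonneg_left e hE.le
      _ = C.cc * (2 ^ C.E * Phi (fun k => G (chanV (-C.mu) (C.fT C.d k))) (pol (2 ^ C.W) T)
          + 2 ^ C.E * (v0 * G (chanV (-C.mu) (Pi.single 0 1))) + 2 ^ C.E * (v1 * G (chanV (-C.mu) (Pi.single 1 1)))
          + 2 ^ C.E * (v2 * G (chanV (-C.mu) (Pi.single 2 1)))) := by ring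
      _ ≤ C.cc * (2 ^ C.E * PP) := mul_le_mul_of_nonneg_left (by linarith) hc.le
      _ = _ := by ring
  · refine ⟨fun k => dig_floorClamp_lt F.hW F.hE _ _, fun k hk => dig_floorClamp_high F.hW F.hE _ _ hk, ?_⟩
    intro k hk
    have h1 := hfl k
    rw [pol_coeff hB] at h1
    have h2 : S.coeff k ≠ 0 := by
      have : 0 < dig (2 ^ C.W) (floorClamp C.W C.E C.w (C.K' * C.J') (S.eval (2 ^ C.W))) k * 2 ^ C.E :=
        Nat.mul_pos (Nat.pos_of_ne_zero hk) (by positivity)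
      omega
    simp only [hS, coeff_add] at h2
    by_cases c3 : (sem C.W C.c2 v2).coeff k = 0
    · by_cases c2 : (sem C.W C.c1 v1).coeff k = 0
      · by_cases c1 : (sem C.W C.c0 v0).coeff k = 0
        · rw [c3, c2, c1] at h2
          exact sem_good h T k (by simpa using h2)
        · exact corner_good t1 _ _ c1
      · exact corner_good t2 _ _ c2
    · exact corner_good t3 _ _ c3

/-- The coefficient as a linear functional. -/
theorem Phi_delta (n : ℕ) (R : ℕ[X]) : Phi (fun p => if p = n then 1 else 0) R = R.coeff n := by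
  induction R using Polynomial.induction_on' with
  | add p q hp hq =>
    rw [Phi_add, hp, hq, coeff_add]
    push_cast
    rfl
  | monomial k a =>
    rw [Phi_monomial, coeff_monomial]
    by_cases h : k = n <;> simp [h]

theorem Phi_delta_shift (n k : ℕ) (R : ℕ[X]) :
    Phi (fun l => if k + l = n then 1 else 0) R = if k ≤ n then (R.coeff (n - k) : ℝ) else 0 := by
  split_ifs with h
  · rw [← Phi_delta]
    refine Phi_congr fun p _ => ?_
    have : k + p = n ↔ p = n - k := by omega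
    simp only [this]
  · exact (Phi_congr (g := fun _ => 0) fun p _ => if_neg (by omega)).trans (Phi_zero_fun R)

theorem coeff_mul_delta (n : ℕ) (R S : ℕ[X]) :
    ((R * S).coeff n : ℝ) = Phi (fun k => if k ≤ n then (S.coeff (n - k) : ℝ) else 0) R := by
  rw [← Phi_delta, Phi_mul]
  refine Phi_congr fun k _ => ?_
  rw [Phi_delta_shift]

/-- Values of the mass vectors. -/
theorem massOK_spec (h : C.Valid) {k : ℕ} (hk : k < C.K * C.J) (hg : k % C.K ≤ C.I) :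
    (2 : ℝ) ^ C.F * C.fQ k 0 ≤ dig (2 ^ C.W) C.R0 (C.K * C.J - 1 - k) ∧
    (2 : ℝ) ^ C.F * C.fQ k 1 ≤ dig (2 ^ C.W) C.R1 (C.K * C.J - 1 - k) ∧
    (2 : ℝ) ^ C.F * C.fQ k 2 ≤ dig (2 ^ C.W) C.R2 (C.K * C.J - 1 - k) := by
  have F := h.facts
  have hK : 0 < C.K := by
    rcases Nat.eq_zero_or_pos C.K with h0 | h0
    · have := F.hL; rw [h0] at this; omega
    · exact h0
  have hj : k / C.K < C.J := Nat.div_lt_of_lt_mul hk
  have e1 := allB_spec h.mass _ hj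
  have e2 := allB_spec e1 _ (Nat.lt_succ_of_le hg)
  have hkk : k % C.K + C.K * (k / C.K) = k := Nat.mod_add_div k C.K
  simp only [hkk, Bool.and_eq_true, massEntry, Nat.ble_eq] at e2
  obtain ⟨⟨⟨g, m0⟩, m1⟩, m2⟩ := e2
  have G := guard_of g
  have hC := scaleS_pos (U := C.U) F.hr F.hs
  have cast : ∀ {a b : ℕ}, a ≤ b → (a : ℝ) ≤ b := fun h => by exact_mod_cast h
  have key : ∀ (x y : ℝ) (a : ℕ), x * scaleS C.r C.s C.U = (a : ℝ) →
      ((2 : ℝ) ^ C.F * a ≤ y * scaleS C.r C.s C.U) → (2 : ℝ) ^ C.F * x ≤ y := by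
    intro x y a hx hy
    rw [← hx] at hy
    have : ((2 : ℝ) ^ C.F * x) * scaleS C.r C.s C.U ≤ y * scaleS C.r C.s C.U := by
      calc _ = (2 : ℝ) ^ C.F * (x * scaleS C.r C.s C.U) := by ring
        _ ≤ _ := hy
    exact le_of_mul_le_mul_right this hC
  have eS : ((C.r ^ C.U * C.s ^ (2 * C.U) : ℕ) : ℝ) = scaleS C.r C.s C.U := by
    unfold scaleS; push_cast; ring
  refine ⟨key _ _ _ (ray_real0 F.hr F.hs G) ?_, key _ _ _ (ray_real1 F.hr F.hs G) ?_,
    key _ _ _ (ray_real2 F.hr F.hs G) ?_⟩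
  · have := cast m0; push_cast at this; rw [← eS]; push_cast; exact this
  · have := cast m1; push_cast at this; rw [← eS]; push_cast; exact this
  · have := cast m2; push_cast at this; rw [← eS]; push_cast; exact this

/-- Digit bound of mass vectors. -/
theorem R_dig_lt (F : Facts C) {R : ℕ} (h : floorClamp C.W 0 C.wr (C.K * C.J) R = R) (k : ℕ) :
    dig (2 ^ C.W) R k < 2 ^ C.wr := by
  rw [← h]
  exact dig_floorClamp_lt F.hW (by simpa using F.hwr) _ _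

theorem dot_spec (F : Facts C) {Q R : ℕ} (hQ : QInv C.W C.w C.K C.I (C.K * C.J) Q)
    (hR : ∀ k, dig (2 ^ C.W) R k < 2 ^ C.wr) {f : ℕ → ℝ}
    (hf : ∀ k, k < C.K * C.J → k % C.K ≤ C.I → (2 : ℝ) ^ C.F * f k ≤ dig (2 ^ C.W) R (C.K * C.J - 1 - k)) :
    (2 : ℝ) ^ C.F * Phi f (pol (2 ^ C.W) Q) ≤ dotQ C.W (C.K * C.J) Q R := by
  have hB := two_le_pow F.hW
  have hev := eval_one_le_of_digits hB F.hL (fun k => (hQ.lt k).le) hQ.high
  have hcoef : ∀ n, (pol (2 ^ C.W) Q * pol (2 ^ C.W) R).coeff n < 2 ^ C.W := by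
    intro n
    refine lt_of_le_of_lt (coeff_mul_le _ _ (2 ^ C.wr) (fun b => ?_) n) ?_
    · rw [pol_coeff hB]
      exact (hR b).le
    · calc _ ≤ C.K * C.J * 2 ^ C.w * 2 ^ C.wr := Nat.mul_le_mul_right _ hev
        _ = C.K * C.J * (2 ^ C.w * 2 ^ C.wr) := by ring
        _ < 2 ^ C.W := F.hdot
  have hpm := pol_mul hB Q R hcoef
  have e : dotQ C.W (C.K * C.J) Q R = (pol (2 ^ C.W) Q * pol (2 ^ C.W) R).coeff (C.K * C.J - 1) := by
    rw [← hpm, pol_coeff hB]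
    unfold dotQ dig
    rw [Nat.shiftRight_eq_div_pow, pow_mul]
  rw [e, coeff_mul_delta, ← Phi_smul_fun]
  refine Phi_le_fun fun k hk => ?_
  rw [pol_coeff hB] at hk
  have hk1 : k < C.K * C.J := by
    by_contra hh
    exact hk (hQ.high k (by omega))
  rw [if_pos (by omega), pol_coeff hB]
  exact hf k hk1 (hQ.good k hk)

/-- The leftover masses. -/
theorem massV_spec {D F d dot : ℕ} (hd : 1 ≤ d) (hdot : dot ≤ 2 ^ (D + F)) :
    massV D F d dot ≤ 2 ^ D ∧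
    ((2 : ℝ) ^ D)⁻¹ * massV D F d dot ≤ 1 - ((dot : ℝ) / 2 ^ (D + F)) ^ d := by
  have hle : D ≤ (D + F) * d := by nlinarith
  have e1 : (2 : ℕ) ^ ((D + F) * d) = 2 ^ ((D + F) * d - D) * 2 ^ D := by
    rw [← pow_add]; congr 1; omega
  have hle2 : dot ^ d ≤ 2 ^ ((D + F) * d) := by
    rw [pow_mul]
    exact Nat.pow_le_pow_left hdot d
  have hdv : massV D F d dot * 2 ^ ((D + F) * d - D) ≤ 2 ^ ((D + F) * d) - dot ^ d :=
    Nat.div_mul_le_self _ _
  constructor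
  · have h1 : massV D F d dot * 2 ^ ((D + F) * d - D) ≤ 2 ^ D * 2 ^ ((D + F) * d - D) := by
      calc _ ≤ 2 ^ ((D + F) * d) - dot ^ d := hdv
        _ ≤ 2 ^ ((D + F) * d) := Nat.sub_le _ _
        _ = _ := by rw [e1]; ring
    exact le_of_mul_le_mul_right h1 (by positivity)
  · have h2 : (massV D F d dot : ℝ) * 2 ^ ((D + F) * d - D) ≤ 2 ^ ((D + F) * d) - (dot : ℝ) ^ d := by
      have := (Nat.cast_le (α := ℝ)).mpr hdv
      rw [Nat.cast_sub hle2] at this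
      push_cast at this
      exact this
    have e2 : (2 : ℝ) ^ ((D + F) * d) = 2 ^ ((D + F) * d - D) * 2 ^ D := by
      rw [← pow_add]; congr 1; omega
    have e3 : (2 : ℝ) ^ ((D + F) * d) = (2 ^ (D + F)) ^ d := by rw [pow_mul]
    rw [div_pow, ← e3]
    have hp1 : (0 : ℝ) < 2 ^ ((D + F) * d) := by positivity
    have hp2 : (0 : ℝ) < 2 ^ ((D + F) * d - D) := by positivity
    have hp3 : (0 : ℝ) < 2 ^ D := by positivity
    have e5 : ((2 : ℝ) ^ D)⁻¹ * (massV D F d dot : ℝ)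
        = ((massV D F d dot : ℝ) * 2 ^ ((D + F) * d - D)) / 2 ^ ((D + F) * d) := by
      rw [e2]
      field_simp
    have e6 : 1 - (dot : ℝ) ^ d / 2 ^ ((D + F) * d)
        = (2 ^ ((D + F) * d) - (dot : ℝ) ^ d) / 2 ^ ((D + F) * d) := by
      field_simp
    rw [e5, e6]
    exact div_le_div_of_nonneg_right h2 hp1.le

/-- The first law. -/
theorem initQ_dom (h : C.Valid) {l : ι → Fin 3 → ℝ} (hl : WSig l) :
    Dom (chan (-C.mu) l) C.fQ' C.cc (pol (2 ^ C.W) C.initQ)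
      ∧ QInv C.W C.w C.K' C.I' (C.K' * C.J') C.initQ := by
  have F := h.facts
  have hB := two_le_pow F.hW
  have hc : C.cc * (2 ^ C.D : ℕ) = 1 := by
    unfold cc
    push_cast
    exact inv_mul_cancel₀ (by positivity)
  refine toQ_dom h hl (T := 0) ?_ ?_ le_rfl le_rfl le_rfl ?_ ?_ ?_
  · intro k
    simp [dig]
  · intro G hG
    rw [pol_zero' hB, Phi_zero, mul_zero]
    exact Finset.sum_nonpos fun t _ => hG.le_zero (hl.nonneg t)
  all_goals
    rw [pol_zero' hB, Phi_zero, mul_zero, hc]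
    norm_num

/-- One step. -/
theorem stepQ_dom (h : C.Valid) {M : ι → Fin 3 → ℝ} (hM : ∀ t, 0 ≤ M t)
    (hW : WSig (powS C.d M)) {Q : ℕ}
    (hDom : Dom M C.fQ C.cc (pol (2 ^ C.W) Q)) (hQ : QInv C.W C.w C.K C.I (C.K * C.J) Q) :
    Dom (chan (-C.mu) (powS C.d M)) C.fQ' C.cc (pol (2 ^ C.W) (C.stepQ Q))
      ∧ QInv C.W C.w C.K' C.I' (C.K' * C.J') (C.stepQ Q) := by
  have F := h.facts
  have hB := two_le_pow F.hW
  set d0 := dotQ C.W (C.K * C.J) Q C.R0 with hd0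
  set d1 := dotQ C.W (C.K * C.J) Q C.R1 with hd1
  set d2 := dotQ C.W (C.K * C.J) Q C.R2 with hd2
  have e : C.stepQ Q = cond (Nat.ble d0 (2 ^ (C.D + C.F)) && Nat.ble d1 (2 ^ (C.D + C.F)) && Nat.ble d2 (2 ^ (C.D + C.F)))
      (C.toQ (C.powT Q) (massV C.D C.F C.d d0) (massV C.D C.F C.d d1) (massV C.D C.F C.d d2)) 0 := rfl
  rw [e]
  by_cases hcond : (Nat.ble d0 (2 ^ (C.D + C.F)) && Nat.ble d1 (2 ^ (C.D + C.F)) && Nat.ble d2 (2 ^ (C.D + C.F))) = true
  · rw [hcond]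
    simp only [Bool.and_eq_true, Nat.ble_eq] at hcond
    obtain ⟨⟨b0, b1⟩, b2⟩ := hcond
    have dg := h.dig
    simp only [digOK, Bool.and_eq_true] at dg
    obtain ⟨⟨r0, r1⟩, r2⟩ := dg
    have r0' := R_dig_lt F (Nat.eq_of_beq_eq_true r0)
    have r1' := R_dig_lt F (Nat.eq_of_beq_eq_true r1)
    have r2' := R_dig_lt F (Nat.eq_of_beq_eq_true r2)
    have p0 := dot_spec F (f := fun k => C.fQ k 0) hQ r0' (fun k hk hg => (massOK_spec h hk hg).1)
    have p1 := dot_spec F (f := fun k => C.fQ k 1) hQ r1' (fun k hk hg => (massOK_spec h hk hg).2.1)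
    have p2 := dot_spec F (f := fun k => C.fQ k 2) hQ r2' (fun k hk hg => (massOK_spec h hk hg).2.2)
    rw [← hd0] at p0
    rw [← hd1] at p1
    rw [← hd2] at p2
    have hX : ∀ {dot : ℕ} {P : ℝ}, (2 : ℝ) ^ C.F * P ≤ dot → ((2 : ℝ) ^ C.D)⁻¹ * P ≤ (dot : ℝ) / 2 ^ (C.D + C.F) := by
      intro dot P hP
      rw [pow_add, inv_mul_eq_div, div_le_div_iff₀ (by positivity) (by positivity)]
      nlinarith [pow_pos (two_pos : (0 : ℝ) < 2) C.D]
    set τ : Fin 3 → ℝ := ![(d0 : ℝ) / 2 ^ (C.D + C.F), (d1 : ℝ) / 2 ^ (C.D + C.F), (d2 : ℝ) / 2 ^ (C.D + C.F)] with hτ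
    have hτ0 : 0 ≤ τ := by
      intro i
      fin_cases i <;> simp only [hτ, Pi.zero_apply, Fin.zero_eta, Fin.mk_one, Fin.reduceFinMk,
        Matrix.cons_val_zero, Matrix.cons_val_one, Matrix.cons_val] <;> positivity
    have hτle : ∀ i, ((2 : ℝ) ^ C.D)⁻¹ * Phi (fun k => rayF C.rho C.z C.K C.o k i) (pol (2 ^ C.W) Q) ≤ τ i := by
      intro i
      fin_cases i
      · exact hX p0
      · exact hX p1
      · exact hX p2
    obtain ⟨cD, clt, -, cm⟩ := chain_spec (d := C.d) (LT := C.LT) F.rho_pos F.hW F.hD F.hDw F.hI F.hL F.hmul hM hQ hDom hτ0 hτle C.d le_rfl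
    obtain ⟨v0a, v0b⟩ := massV_spec (D := C.D) (F := C.F) F.hd b0
    obtain ⟨v1a, v1b⟩ := massV_spec (D := C.D) (F := C.F) F.hd b1
    obtain ⟨v2a, v2b⟩ := massV_spec (D := C.D) (F := C.F) F.hd b2
    have c0 := cm 0
    have c1 := cm 1
    have c2 := cm 2
    simp only [hτ, Matrix.cons_val_zero, Matrix.cons_val_one, Matrix.cons_val] at c0 c1 c2
    exact toQ_dom h hW clt cD v0a v1a v2a (by unfold cc fT powT; linarith) (by unfold cc fT powT; linarith)
      (by unfold cc fT powT; linarith)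
  · have : (Nat.ble d0 (2 ^ (C.D + C.F)) && Nat.ble d1 (2 ^ (C.D + C.F)) && Nat.ble d2 (2 ^ (C.D + C.F))) = false := by
      rw [← Bool.not_eq_true]
      exact hcond
    rw [this]
    simp only [cond_false]
    constructor
    · intro G hG
      rw [pol_zero' hB, Phi_zero, mul_zero]
      have hl0 : -(1 / 2) ≤ -C.mu := by linarith [F.mu_le]
      have hl1 : -C.mu ≤ 1 := by linarith [F.mu_nonneg]
      exact Finset.sum_nonpos fun t _ => hG.le_zero (chanV_nonneg hl0 hl1 (hW.nonneg t))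
    · refine ⟨fun k => ?_, fun k _ => ?_, fun k hk => ?_⟩
      · simp [dig]
      · simp [dig]
      · simp [dig] at hk

end Cfg

end Vale.Agent.Lib.P154.Lat
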