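import Vale.Agent.Lib.P154.Lat.Ray

/-!
Binary tries holding a table of splitting entries, and their digit-level evaluation.
-/

noncomputable section

open Polynomial

namespace Vale.Agent.Lib.P154.Lat

/-- A binary trie over digit positions. -/
inductive Trie where
  | nil : Trie
  | leaf (c1 p1 c2 p2 c3 p3 : ℕ) : Trie
  | node (m sl sr : ℕ) (l r : Trie) : Trie

/-- Evaluation of the table on a number. -/
def go (W : ℕ) (t : Trie) : ℕ → ℕ :=
  Trie.rec (motive := fun _ => ℕ → ℕ)
    (fun _ => 0)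
    (fun c1 p1 c2 p2 c3 p3 x =>
      cond (Nat.beq x 0) 0
        ((x % 2 ^ W) * ((c1 <<< (W * p1)) + (c2 <<< (W * p2)) + (c3 <<< (W * p3)))))
    (fun m sl sr _ _ ihl ihr x =>
      cond (Nat.beq x 0) 0
        (((ihl (x % (1 <<< (W * m)))) <<< (W * sl)) + ((ihr (x >>> (W * m))) <<< (W * sr))))
    t

/-- Validation of the table. -/
def checkT (ok : ℕ → ℕ → ℕ → ℕ → ℕ → ℕ → ℕ → Bool) (t : Trie) : ℕ → ℕ → Bool :=
  Trie.rec (motive := fun _ => ℕ → ℕ → Bool)
    (fun _ _ => true)
    (fun c1 p1 c2 p2 c3 p3 k s => ok k (s + p1) (s + p2) (s + p3) c1 c2 c3)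
    (fun m sl sr _ _ ihl ihr k s => ihl k (s + sl) && ihr (k + m) (s + sr))
    t

theorem chk_node {ok : ℕ → ℕ → ℕ → ℕ → ℕ → ℕ → ℕ → Bool} {m sl sr : ℕ} {l r : Trie} {k s : ℕ}
    (h1 : checkT ok l k (s + sl) = true) (h2 : checkT ok r (k + m) (s + sr) = true) :
    checkT ok (Trie.node m sl sr l r) k s = true := by
  change (checkT ok l k (s + sl) && checkT ok r (k + m) (s + sr)) = true
  rw [h1, h2]
  rfl

/-- The sum of all coefficients of the table. -/
def total (t : Trie) : ℕ :=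
  Trie.rec (motive := fun _ => ℕ) 0 (fun c1 _ c2 _ c3 _ => c1 + c2 + c3)
    (fun _ _ _ _ _ ihl ihr => ihl + ihr) t

/-- The polynomial computed by the table. -/
def sem (W : ℕ) : Trie → ℕ → ℕ[X]
  | .nil, _ => 0
  | .leaf c1 p1 c2 p2 c3 p3, x =>
    C (x % 2 ^ W) * (monomial p1 c1 + monomial p2 c2 + monomial p3 c3)
  | .node m sl sr l r, x =>
    X ^ sl * sem W l (x % 2 ^ (W * m)) + X ^ sr * sem W r (x / 2 ^ (W * m))

theorem sem_zero (W : ℕ) : ∀ t : Trie, sem W t 0 = 0
  | .nil => rfl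
  | .leaf c1 p1 c2 p2 c3 p3 => by simp [sem]
  | .node m sl sr l r => by simp [sem, sem_zero W l, sem_zero W r]

theorem go_zero (W : ℕ) (t : Trie) : go W t 0 = 0 := by
  cases t <;> rfl

theorem sem_eval (W : ℕ) : ∀ (t : Trie) (x : ℕ), (sem W t x).eval (2 ^ W) = go W t x
  | .nil, x => by simp [sem, go]
  | .leaf c1 p1 c2 p2 c3 p3, x => by
    by_cases hx : x = 0
    · subst hx
      rw [sem_zero, go_zero]
      simp
    have hb : Nat.beq x 0 = false := by
      rw [← Bool.not_eq_true]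
      exact fun h => hx (Nat.eq_of_beq_eq_true h)
    have e : go W (.leaf c1 p1 c2 p2 c3 p3) x
      = (x % 2 ^ W) * ((c1 <<< (W * p1)) + (c2 <<< (W * p2)) + (c3 <<< (W * p3))) := by
      change cond (Nat.beq x 0) 0 _ = _
      rw [hb]
      rfl
    rw [e]
    simp only [sem, eval_mul, eval_C, eval_add, eval_monomial, Nat.shiftLeft_eq, pow_mul]
  | .node m sl sr l r, x => by
    by_cases hx : x = 0
    · subst hx
      rw [sem_zero, go_zero]
      simp
    have hb : Nat.beq x 0 = false := by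
      rw [← Bool.not_eq_true]
      exact fun h => hx (Nat.eq_of_beq_eq_true h)
    have e : go W (.node m sl sr l r) x
      = ((go W l (x % (1 <<< (W * m)))) <<< (W * sl)) + ((go W r (x >>> (W * m))) <<< (W * sr)) := by
      change cond (Nat.beq x 0) 0 _ = _
      rw [hb]
      rfl
    rw [e, sem, Nat.one_shiftLeft, eval_add, eval_mul, eval_mul, sem_eval W l, sem_eval W r, eval_pow, eval_pow, eval_X,
      Nat.shiftLeft_eq, Nat.shiftLeft_eq, Nat.shiftRight_eq_div_pow]
    simp only [pow_mul]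
    ring

theorem coeff_le_eval_one (R : ℕ[X]) (n : ℕ) : R.coeff n ≤ R.eval 1 := by
  induction R using Polynomial.induction_on' with
  | add p q hp hq =>
    rw [coeff_add, eval_add]
    exact add_le_add hp hq
  | monomial k a =>
    rw [coeff_monomial, eval_monomial]
    split_ifs <;> simp

theorem dig_of_mod_le {W : ℕ} {x m M : ℕ} (hW : 1 ≤ W) (h : ∀ k, dig (2 ^ W) x k ≤ M) (k : ℕ) :
    dig (2 ^ W) (x % 2 ^ (W * m)) k ≤ M := by
  have hB : 2 ≤ 2 ^ W := by
    calc 2 = 2 ^ 1 := by norm_num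
      _ ≤ 2 ^ W := Nat.pow_le_pow_right (by norm_num) hW
  rw [pow_mul]
  by_cases hk : k < m
  · rw [dig_mod_pow hB _ _ _ hk]; exact h k
  · rw [dig_mod_pow_high hB _ _ _ (by omega)]; exact Nat.zero_le _

theorem dig_of_div_le {W : ℕ} {x m M : ℕ} (h : ∀ k, dig (2 ^ W) x k ≤ M) (k : ℕ) :
    dig (2 ^ W) (x / 2 ^ (W * m)) k ≤ M := by
  rw [pow_mul, dig_div_pow]
  exact h _

theorem sem_eval_one {W : ℕ} (hW : 1 ≤ W) : ∀ (t : Trie) (x M : ℕ),
    (∀ k, dig (2 ^ W) x k ≤ M) → (sem W t x).eval 1 ≤ M * total t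
  | .nil, x, M, _ => by simp [sem]
  | .leaf c1 p1 c2 p2 c3 p3, x, M, h => by
    have e : total (.leaf c1 p1 c2 p2 c3 p3) = c1 + c2 + c3 := rfl
    rw [e]
    simp only [sem, eval_mul, eval_C, eval_add, eval_monomial, one_pow, mul_one]
    have := h 0
    simp only [dig, pow_zero, Nat.div_one] at this
    exact Nat.mul_le_mul_right _ this
  | .node m sl sr l r, x, M, h => by
    have e : total (.node m sl sr l r) = total l + total r := rfl
    rw [e, sem]
    simp only [eval_add, eval_mul, eval_pow, eval_X, one_pow, one_mul]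
    rw [mul_add]
    exact add_le_add (sem_eval_one hW l _ M (dig_of_mod_le hW h))
      (sem_eval_one hW r _ M (dig_of_div_le h))

theorem Phi_nonpos_shift {F : ℕ → ℝ} (hF : ∀ k, F k ≤ 0) (k : ℕ) (R : ℕ[X]) :
    Phi (fun l => F (k + l)) R ≤ 0 := Phi_nonpos fun l => hF _

theorem pol_small {B d : ℕ} (hB : 2 ≤ B) (h : d < B) : pol B d = monomial 0 d := by
  have := pol_of_eval hB (C d) (fun n => by
    rw [coeff_C]
    split_ifs <;> omega)
  simpa using this

/-- The main property of tables. -/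
theorem trie_main {W : ℕ} (hW : 1 ≤ W) {F Ψ : ℕ → ℝ} (hF : ∀ k, F k ≤ 0) (E : ℕ)
    {ok : ℕ → ℕ → ℕ → ℕ → ℕ → ℕ → ℕ → Bool}
    (hok : ∀ k t1 t2 t3 c1 c2 c3, ok k t1 t2 t3 c1 c2 c3 = true →
      (2 : ℝ) ^ E * F k ≤ c1 * Ψ t1 + c2 * Ψ t2 + c3 * Ψ t3) :
    ∀ (t : Trie) (x k s : ℕ), checkT ok t k s = true →
      (2 : ℝ) ^ E * Phi (fun l => F (k + l)) (pol (2 ^ W) x) ≤ Phi (fun p => Ψ (s + p)) (sem W t x)
  | .nil, x, k, s, _ => by
    have := Phi_nonpos_shift hF k (pol (2 ^ W) x)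
    simp only [sem, Phi_zero]
    have p : (0 : ℝ) < 2 ^ E := by positivity
    nlinarith
  | .leaf c1 p1 c2 p2 c3 p3, x, k, s, h => by
    have h' : ok k (s + p1) (s + p2) (s + p3) c1 c2 c3 = true := h
    have hB : 2 ≤ 2 ^ W := by
      calc 2 = 2 ^ 1 := by norm_num
        _ ≤ 2 ^ W := Nat.pow_le_pow_right (by norm_num) hW
    have e := pol_split hB x 1
    rw [pow_one] at e
    have hlt : x % 2 ^ W < 2 ^ W := Nat.mod_lt _ (by positivity)
    rw [pol_small hB hlt] at e
    rw [e, Phi_add, Phi_X_pow_mul, Phi_monomial]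
    have h1 := hok _ _ _ _ _ _ _ h'
    have h2 : Phi (fun l => F (k + (1 + l))) (pol (2 ^ W) (x / 2 ^ W)) ≤ 0 :=
      Phi_nonpos fun l => hF _
    have e2 : Phi (fun p => Ψ (s + p)) (sem W (.leaf c1 p1 c2 p2 c3 p3) x)
        = ((x % 2 ^ W : ℕ) : ℝ) * (c1 * Ψ (s + p1) + c2 * Ψ (s + p2) + c3 * Ψ (s + p3)) := by
      simp only [sem]
      rw [Phi_C_mul, Phi_add, Phi_add, Phi_monomial, Phi_monomial, Phi_monomial]
    rw [e2]
    have p : (0 : ℝ) < 2 ^ E := by positivity
    have d0 : (0 : ℝ) ≤ ((x % 2 ^ W : ℕ) : ℝ) := Nat.cast_nonneg _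
    have h3 := mul_le_mul_of_nonneg_left h1 d0
    simp only [add_zero] at *
    nlinarith
  | .node m sl sr l r, x, k, s, h => by
    have h' : (checkT ok l k (s + sl) && checkT ok r (k + m) (s + sr)) = true := h
    simp only [Bool.and_eq_true] at h'
    have hB : 2 ≤ 2 ^ W := by
      calc 2 = 2 ^ 1 := by norm_num
        _ ≤ 2 ^ W := Nat.pow_le_pow_right (by norm_num) hW
    have il := trie_main hW hF E hok l (x % 2 ^ (W * m)) k (s + sl) h'.1
    have ir := trie_main hW hF E hok r (x / 2 ^ (W * m)) (k + m) (s + sr) h'.2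
    have e := pol_split hB x m
    rw [← pow_mul] at e
    rw [e, Phi_add, Phi_X_pow_mul, sem, Phi_add, Phi_X_pow_mul, Phi_X_pow_mul, mul_add]
    have e1 : (fun l => F (k + (m + l))) = fun l => F (k + m + l) := by
      funext l; rw [add_assoc]
    have e2 : (fun l => Ψ (s + (sl + l))) = fun l => Ψ (s + sl + l) := by
      funext l; rw [add_assoc]
    have e3 : (fun l => Ψ (s + (sr + l))) = fun l => Ψ (s + sr + l) := by
      funext l; rw [add_assoc]
    rw [e1, e2, e3]
    exact add_le_add il ir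

/-- Positions of a table satisfy the validated property. -/
theorem sem_support {W : ℕ} {Good : ℕ → Prop}
    {ok : ℕ → ℕ → ℕ → ℕ → ℕ → ℕ → ℕ → Bool}
    (hok : ∀ k t1 t2 t3 c1 c2 c3, ok k t1 t2 t3 c1 c2 c3 = true → Good t1 ∧ Good t2 ∧ Good t3) :
    ∀ (t : Trie) (x k s : ℕ), checkT ok t k s = true →
      ∀ p, (sem W t x).coeff p ≠ 0 → Good (s + p)
  | .nil, x, k, s, _, p, hp => by simp [sem] at hp
  | .leaf c1 p1 c2 p2 c3 p3, x, k, s, h, p, hp => by
    have h' : ok k (s + p1) (s + p2) (s + p3) c1 c2 c3 = true := h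
    obtain ⟨g1, g2, g3⟩ := hok _ _ _ _ _ _ _ h'
    simp only [sem, coeff_C_mul, coeff_add, coeff_monomial] at hp
    by_cases e1 : p1 = p
    · rw [← e1]; exact g1
    by_cases e2 : p2 = p
    · rw [← e2]; exact g2
    by_cases e3 : p3 = p
    · rw [← e3]; exact g3
    simp [e1, e2, e3] at hp
  | .node m sl sr l r, x, k, s, h, p, hp => by
    have h' : (checkT ok l k (s + sl) && checkT ok r (k + m) (s + sr)) = true := h
    simp only [Bool.and_eq_true] at h'
    rw [sem, coeff_add, coeff_X_pow_mul', coeff_X_pow_mul'] at hp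
    by_cases e : sl ≤ p
    · by_cases e' : (sem W l (x % 2 ^ (W * m))).coeff (p - sl) ≠ 0
      · have := sem_support hok l (x % 2 ^ (W * m)) k (s + sl) h'.1 _ e'
        have e2 : s + sl + (p - sl) = s + p := by omega
        rwa [e2] at this
      · by_cases e'' : sr ≤ p
        · have hq : (sem W r (x / 2 ^ (W * m))).coeff (p - sr) ≠ 0 := by
            intro h0
            apply hp
            push Not at e'
            rw [if_pos e, if_pos e'', e', h0]
          have := sem_support hok r (x / 2 ^ (W * m)) (k + m) (s + sr) h'.2 _ hq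
          have e2 : s + sr + (p - sr) = s + p := by omega
          rwa [e2] at this
        · push Not at e'
          apply absurd hp
          simp [if_neg e'', e']
    · by_cases e'' : sr ≤ p
      · have hq : (sem W r (x / 2 ^ (W * m))).coeff (p - sr) ≠ 0 := by
          intro h0
          apply hp
          rw [if_neg e, if_pos e'', h0]
        have := sem_support hok r (x / 2 ^ (W * m)) (k + m) (s + sr) h'.2 _ hq
        have e2 : s + sr + (p - sr) = s + p := by omega
        rwa [e2] at this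
      · apply absurd hp
        simp [if_neg e, if_neg e'']

end Vale.Agent.Lib.P154.Lat
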